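import Vale.Agent.Lib.P243.Chord

/-! Level sets of the chord length, the layer cake formula, and the planar
Brunn-Minkowski inequality for compact convex sets. -/

set_option linter.unusedSectionVars false

namespace Vale.Agent.Lib.P243

open MeasureTheory Set

/-- Level sets of the chord length. -/
def lev {P : Type*} (K : Set (P × ℝ)) (t : ℝ) : Set P := {y | y ∈ shadow K ∧ t ≤ len K y}

section generic

variable {P : Type*} [NormedAddCommGroup P] [NormedSpace ℝ P] {K : Set (P × ℝ)}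

lemma lev_anti {s t : ℝ} (h : s ≤ t) : lev K t ⊆ lev K s := fun _ hy => ⟨hy.1, h.trans hy.2⟩

lemma isCompact_lev (hc : IsCompact K) (hv : Convex ℝ K) {t : ℝ} (ht : 0 ≤ t) :
    IsCompact (lev K t) := by
  have hg : Continuous fun w : P × ℝ => (w.1, w.2 + t) := by fun_prop
  have hC : IsCompact (K ∩ (fun w : P × ℝ => (w.1, w.2 + t)) ⁻¹' K) :=
    hc.inter_right (hc.isClosed.preimage hg)
  have e : lev K t = Prod.fst '' (K ∩ (fun w : P × ℝ => (w.1, w.2 + t)) ⁻¹' K) := by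
    ext y
    constructor
    · rintro ⟨hy, hly⟩
      refine ⟨(y, lo K y), ⟨lo_mem hc hy, ?_⟩, rfl⟩
      simp only [mem_preimage]
      have hs := sec_eq_Icc hc hv hy
      have : lo K y + t ∈ sec K y := by
        rw [hs]
        unfold len at hly
        exact ⟨by linarith, by linarith⟩
      exact this
    · rintro ⟨⟨y', z⟩, ⟨h1, h2⟩, rfl⟩
      simp only [mem_preimage] at h2
      refine ⟨mem_shadow.2 ⟨z, h1⟩, ?_⟩
      have := sub_le_len hc h1 h2
      simp only at this ⊢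
      linarith
  rw [e]
  exact hC.image continuous_fst

lemma lev_comb {K₀ K₁ T : Set (P × ℝ)} (hc₀ : IsCompact K₀) (hc₁ : IsCompact K₁)
    (hcT : IsCompact T) {p q : ℝ}
    (hT : ∀ w₀ ∈ K₀, ∀ w₁ ∈ K₁, p • w₀ + q • w₁ ∈ T) {a b : ℝ} (hp : 0 ≤ p) (hq : 0 ≤ q)
    {y₀ y₁ : P} (h₀ : y₀ ∈ lev K₀ a) (h₁ : y₁ ∈ lev K₁ b) :
    p • y₀ + q • y₁ ∈ lev T (p * a + q * b) := by
  have e : ∀ z₁ z₂ : ℝ, p • ((y₀, z₁) : P × ℝ) + q • ((y₁, z₂) : P × ℝ)
      = (p • y₀ + q • y₁, p * z₁ + q * z₂) := by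
    intro z₁ z₂
    ext <;> simp
  have h1 := hT _ (lo_mem hc₀ h₀.1) _ (lo_mem hc₁ h₁.1)
  have h2 := hT _ (hi_mem hc₀ h₀.1) _ (hi_mem hc₁ h₁.1)
  rw [e] at h1 h2
  refine ⟨mem_shadow.2 ⟨_, h1⟩, ?_⟩
  have h3 := sub_le_len hcT h1 h2
  have h4 := h₀.2
  have h5 := h₁.2
  unfold len at h4 h5
  have h6 : p * a ≤ p * (hi K₀ y₀ - lo K₀ y₀) := mul_le_mul_of_nonneg_left h4 hp
  have h7 : q * b ≤ q * (hi K₁ y₁ - lo K₁ y₁) := mul_le_mul_of_nonneg_left h5 hq
  nlinarith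

lemma lev_convex (hc : IsCompact K) (hv : Convex ℝ K) (t : ℝ) : Convex ℝ (lev K t) := by
  intro y₀ h₀ y₁ h₁ p q hp hq hpq
  have h := lev_comb hc hc hc (fun w₀ h₀ w₁ h₁ => hv h₀ h₁ hp hq hpq) hp hq h₀ h₁ (a := t) (b := t)
  have e : p * t + q * t = t := by
    rw [← add_mul, hpq, one_mul]
  rwa [e] at h

end generic

section layercake

variable {P : Type*} [NormedAddCommGroup P] [NormedSpace ℝ P] [MeasurableSpace P] [BorelSpace P]
  [SecondCountableTopology P] {K : Set (P × ℝ)}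

lemma measurable_sec_volume (hc : IsCompact K) :
    Measurable fun y => volume (sec K y) :=
  measurable_measure_prodMk_left hc.measurableSet

lemma volume_sec_ne_top (hc : IsCompact K) (y : P) : volume (sec K y) ≠ ⊤ :=
  (isCompact_sec hc y).measure_lt_top.ne

/-- The layer cake formula for the chord length, at scale `M`. -/
lemma lintegral_sec_eq (hc : IsCompact K) (hv : Convex ℝ K) (μ : Measure P) [SFinite μ]
    {M : ℝ} (hM : 0 < M) :
    ∫⁻ y, volume (sec K y) ∂μ = ENNReal.ofReal M * ∫⁻ t in Ioi (0 : ℝ), μ (lev K (t * M)) := by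
  set f : P → ℝ := fun y => (volume (sec K y)).toReal / M with hf
  have hf0 : ∀ y, 0 ≤ f y := fun y => div_nonneg ENNReal.toReal_nonneg hM.le
  have hfm : Measurable f := (measurable_sec_volume hc).ennreal_toReal.div_const M
  have h1 := lintegral_eq_lintegral_meas_le μ (Filter.Eventually.of_forall hf0) hfm.aemeasurable
  have h2 : ∀ y, ENNReal.ofReal (f y) * ENNReal.ofReal M = volume (sec K y) := by
    intro y
    rw [← ENNReal.ofReal_mul (hf0 y), hf]
    simp only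
    rw [div_mul_cancel₀ _ hM.ne', ENNReal.ofReal_toReal (volume_sec_ne_top hc y)]
  have h3 : ∀ t ∈ Ioi (0 : ℝ), {y | t ≤ f y} = lev K (t * M) := by
    intro t ht
    ext y
    simp only [mem_setOf_eq, hf, le_div_iff₀ hM]
    constructor
    · intro h
      have hpos : 0 < t * M := mul_pos ht hM
      by_cases hy : y ∈ shadow K
      · rw [volume_sec hc hv hy, ENNReal.toReal_ofReal (len_nonneg hc hy)] at h
        exact ⟨hy, h⟩
      · rw [sec_empty hy] at h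
        simp only [measure_empty, ENNReal.toReal_zero] at h
        linarith
    · rintro ⟨hy, h⟩
      rw [volume_sec hc hv hy, ENNReal.toReal_ofReal (len_nonneg hc hy)]
      exact h
  calc ∫⁻ y, volume (sec K y) ∂μ
      = ∫⁻ y, ENNReal.ofReal (f y) * ENNReal.ofReal M ∂μ := by simp only [h2]
    _ = ENNReal.ofReal M * ∫⁻ y, ENNReal.ofReal (f y) ∂μ := by
        rw [lintegral_mul_const' _ _ ENNReal.ofReal_ne_top, mul_comm]
    _ = ENNReal.ofReal M * ∫⁻ t in Ioi (0 : ℝ), μ {y | t ≤ f y} := by rw [h1]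
    _ = ENNReal.ofReal M * ∫⁻ t in Ioi (0 : ℝ), μ (lev K (t * M)) := by
        congr 1
        apply setLIntegral_congr_fun measurableSet_Ioi
        intro t ht
        simp only
        rw [h3 t ht]

/-- The layer cake formula for the chord length. -/
lemma lintegral_sec_eq' (hc : IsCompact K) (hv : Convex ℝ K) (μ : Measure P) [SFinite μ] :
    ∫⁻ y, volume (sec K y) ∂μ = ∫⁻ t in Ioi (0 : ℝ), μ (lev K t) := by
  have := lintegral_sec_eq hc hv μ one_pos
  simpa using this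

end layercake

/-- Brunn-Minkowski on the line, for compact sets and a convex target. -/
lemma interval_bm {J₀ J₁ J : Set ℝ} (hc₀ : IsCompact J₀) (hc₁ : IsCompact J₁) (hn₀ : J₀.Nonempty)
    (hn₁ : J₁.Nonempty) (hJ : Convex ℝ J) {p q : ℝ} (hp : 0 ≤ p) (hq : 0 ≤ q)
    (h : ∀ x₀ ∈ J₀, ∀ x₁ ∈ J₁, p • x₀ + q • x₁ ∈ J) :
    ENNReal.ofReal p * volume J₀ + ENNReal.ofReal q * volume J₁ ≤ volume J := by
  have ha₀ := hc₀.sInf_mem hn₀
  have hb₀ := hc₀.sSup_mem hn₀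
  have ha₁ := hc₁.sInf_mem hn₁
  have hb₁ := hc₁.sSup_mem hn₁
  set a₀ := sInf J₀
  set b₀ := sSup J₀
  set a₁ := sInf J₁
  set b₁ := sSup J₁
  have hab₀ : a₀ ≤ b₀ := csInf_le_csSup hn₀ hc₀.bddBelow hc₀.bddAbove
  have hab₁ : a₁ ≤ b₁ := csInf_le_csSup hn₁ hc₁.bddBelow hc₁.bddAbove
  have h1 : volume J₀ ≤ ENNReal.ofReal (b₀ - a₀) := by
    rw [← Real.volume_Icc]
    exact measure_mono fun x hx => ⟨csInf_le hc₀.bddBelow hx, le_csSup hc₀.bddAbove hx⟩
  have h2 : volume J₁ ≤ ENNReal.ofReal (b₁ - a₁) := by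
    rw [← Real.volume_Icc]
    exact measure_mono fun x hx => ⟨csInf_le hc₁.bddBelow hx, le_csSup hc₁.bddAbove hx⟩
  have h3 : Icc (p * a₀ + q * a₁) (p * b₀ + q * b₁) ⊆ J := by
    have := hJ.ordConnected.out (h a₀ ha₀ a₁ ha₁) (h b₀ hb₀ b₁ hb₁)
    simpa using this
  calc ENNReal.ofReal p * volume J₀ + ENNReal.ofReal q * volume J₁
      ≤ ENNReal.ofReal p * ENNReal.ofReal (b₀ - a₀) + ENNReal.ofReal q * ENNReal.ofReal (b₁ - a₁) := by
        gcongr
    _ = ENNReal.ofReal ((p * b₀ + q * b₁) - (p * a₀ + q * a₁)) := by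
        rw [← ENNReal.ofReal_mul hp, ← ENNReal.ofReal_mul hq,
          ← ENNReal.ofReal_add (mul_nonneg hp (by linarith)) (mul_nonneg hq (by linarith))]
        congr 1
        ring
    _ = volume (Icc (p * a₀ + q * a₁) (p * b₀ + q * b₁)) := (Real.volume_Icc).symm
    _ ≤ volume J := measure_mono h3

/-- A numerical consequence of Cauchy-Schwarz. -/
lemma cauchy_aux {p q M₀ M₁ a₀ a₁ : ℝ} (hp : 0 ≤ p) (hq : 0 ≤ q) (hM₀ : 0 < M₀) (hM₁ : 0 < M₁)
    (ha₀ : 0 ≤ a₀) (ha₁ : 0 ≤ a₁) :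
    (p * √a₀ + q * √a₁) ^ 2 ≤ (p * M₀ + q * M₁) * (p * (a₀ / M₀) + q * (a₁ / M₁)) := by
  set u := √a₀ with hu
  set v := √a₁ with hv
  have hu2 : a₀ = u ^ 2 := (Real.sq_sqrt ha₀).symm
  have hv2 : a₁ = v ^ 2 := (Real.sq_sqrt ha₁).symm
  rw [hu2, hv2]
  have key : 2 * u * v ≤ M₀ / M₁ * v ^ 2 + M₁ / M₀ * u ^ 2 := by
    have h1 : 0 ≤ (M₀ * v - M₁ * u) ^ 2 := sq_nonneg _
    have h2 : M₀ / M₁ * v ^ 2 + M₁ / M₀ * u ^ 2 - 2 * u * v = (M₀ * v - M₁ * u) ^ 2 / (M₀ * M₁) := by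
      field_simp
      ring
    have h3 : 0 ≤ (M₀ * v - M₁ * u) ^ 2 / (M₀ * M₁) := by positivity
    linarith
  have e : (p * M₀ + q * M₁) * (p * (u ^ 2 / M₀) + q * (v ^ 2 / M₁))
      = p ^ 2 * u ^ 2 + q ^ 2 * v ^ 2 + p * q * (M₀ / M₁ * v ^ 2 + M₁ / M₀ * u ^ 2) := by
    field_simp
    ring
  rw [e]
  have hpq : 0 ≤ p * q := mul_nonneg hp hq
  nlinarith [mul_le_mul_of_nonneg_left key hpq]

/-- The planar Brunn-Minkowski inequality, for compact convex sets of positive area and a convex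
compact target containing the Minkowski combination. -/
theorem planar_bm {S₀ S₁ T : Set (ℝ × ℝ)} (hc₀ : IsCompact S₀) (hv₀ : Convex ℝ S₀)
    (hc₁ : IsCompact S₁) (hv₁ : Convex ℝ S₁) (hcT : IsCompact T) (hvT : Convex ℝ T)
    (h₀ : volume S₀ ≠ 0) (h₁ : volume S₁ ≠ 0) {p q : ℝ} (hp : 0 ≤ p) (hq : 0 ≤ q)
    (hpq : p + q = 1)
    (hT : ∀ w₀ ∈ S₀, ∀ w₁ ∈ S₁, p • w₀ + q • w₁ ∈ T) :
    p * √(volume S₀).toReal + q * √(volume S₁).toReal ≤ √(volume T).toReal := by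
  have hne₀ : S₀.Nonempty := nonempty_iff_ne_empty.2 fun h => h₀ (by rw [h]; simp)
  have hne₁ : S₁.Nonempty := nonempty_iff_ne_empty.2 fun h => h₁ (by rw [h]; simp)
  obtain ⟨y₀, hy₀, hmax₀⟩ := exists_longest hc₀ hne₀
  obtain ⟨y₁, hy₁, hmax₁⟩ := exists_longest hc₁ hne₁
  set M₀ := len S₀ y₀ with hM₀
  set M₁ := len S₁ y₁ with hM₁
  have hvol : ∀ {S : Set (ℝ × ℝ)}, IsCompact S → volume S = ∫⁻ x, volume (sec S x) := by
    intro S hS
    rw [Measure.volume_eq_prod, Measure.prod_apply hS.measurableSet]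
    rfl
  have hpos : ∀ {S : Set (ℝ × ℝ)} {y : ℝ}, IsCompact S → Convex ℝ S → volume S ≠ 0 →
      (∀ y' ∈ shadow S, len S y' ≤ len S y) → 0 < len S y := by
    intro S y hS hvS hS0 hm
    by_contra hcon
    push_neg at hcon
    apply hS0
    rw [hvol hS]
    apply lintegral_eq_zero_of_ae_eq_zero
    refine Filter.Eventually.of_forall fun y' => ?_
    show volume (sec S y') = 0
    by_cases hy' : y' ∈ shadow S
    · rw [volume_sec hS hvS hy']
      exact ENNReal.ofReal_of_nonpos ((hm y' hy').trans hcon)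
    · rw [sec_empty hy']
      simp
  have hM₀pos : 0 < M₀ := hpos hc₀ hv₀ h₀ hmax₀
  have hM₁pos : 0 < M₁ := hpos hc₁ hv₁ h₁ hmax₁
  set M := p * M₀ + q * M₁ with hM
  have hMpos : 0 < M := by
    have h1 : p * M₀ + q * M₁ ≥ min M₀ M₁ * (p + q) := by
      have h2 := min_le_left M₀ M₁
      have h3 := min_le_right M₀ M₁
      nlinarith
    rw [hpq, mul_one] at h1
    have := lt_min hM₀pos hM₁pos
    linarith
  -- the pointwise comparison of level sets
  have hpt : ∀ t ∈ Ioi (0 : ℝ), ENNReal.ofReal p * volume (lev S₀ (t * M₀))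
      + ENNReal.ofReal q * volume (lev S₁ (t * M₁)) ≤ volume (lev T (t * M)) := by
    intro t ht
    have ht0 : 0 < t := ht
    by_cases ht1 : t ≤ 1
    · have hn₀ : (lev S₀ (t * M₀)).Nonempty :=
        ⟨y₀, hy₀, by nlinarith⟩
      have hn₁ : (lev S₁ (t * M₁)).Nonempty :=
        ⟨y₁, hy₁, by nlinarith⟩
      apply interval_bm (isCompact_lev hc₀ hv₀ (by positivity)) (isCompact_lev hc₁ hv₁ (by positivity))
        hn₀ hn₁ (lev_convex hcT hvT _) hp hq
      intro x₀ hx₀ x₁ hx₁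
      have := lev_comb hc₀ hc₁ hcT hT hp hq hx₀ hx₁
      have e : p * (t * M₀) + q * (t * M₁) = t * M := by
        rw [hM]
        ring
      rwa [e] at this
    · push_neg at ht1
      have hemp : ∀ {S : Set (ℝ × ℝ)} {y : ℝ}, 0 < len S y →
          (∀ y' ∈ shadow S, len S y' ≤ len S y) → lev S (t * len S y) = ∅ := by
        intro S y hy hm
        ext y'
        simp only [mem_empty_iff_false, iff_false]
        rintro ⟨h1, h2⟩
        have := hm y' h1
        nlinarith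
      rw [hemp hM₀pos hmax₀, hemp hM₁pos hmax₁]
      simp
  -- integrate
  have hI : ENNReal.ofReal p * (∫⁻ t in Ioi (0 : ℝ), volume (lev S₀ (t * M₀)))
      + ENNReal.ofReal q * (∫⁻ t in Ioi (0 : ℝ), volume (lev S₁ (t * M₁)))
      ≤ ∫⁻ t in Ioi (0 : ℝ), volume (lev T (t * M)) := by
    rw [← lintegral_const_mul' _ _ ENNReal.ofReal_ne_top, ← lintegral_const_mul' _ _ ENNReal.ofReal_ne_top]
    refine (le_lintegral_add _ _).trans ?_
    exact setLIntegral_mono' measurableSet_Ioi hpt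
  have hS₀eq := lintegral_sec_eq hc₀ hv₀ volume hM₀pos
  have hS₁eq := lintegral_sec_eq hc₁ hv₁ volume hM₁pos
  have hTeq := lintegral_sec_eq hcT hvT volume hMpos
  rw [← hvol hc₀] at hS₀eq
  rw [← hvol hc₁] at hS₁eq
  rw [← hvol hcT] at hTeq
  set I₀ := ∫⁻ t in Ioi (0 : ℝ), volume (lev S₀ (t * M₀)) with hI₀
  set I₁ := ∫⁻ t in Ioi (0 : ℝ), volume (lev S₁ (t * M₁)) with hI₁
  set I := ∫⁻ t in Ioi (0 : ℝ), volume (lev T (t * M)) with hIdef
  have htop₀ : volume S₀ ≠ ⊤ := hc₀.measure_lt_top.ne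
  have htop₁ : volume S₁ ≠ ⊤ := hc₁.measure_lt_top.ne
  have htopT : volume T ≠ ⊤ := hcT.measure_lt_top.ne
  have hI₀t : I₀ ≠ ⊤ := by
    intro h
    rw [h, ENNReal.mul_top (by simpa using hM₀pos)] at hS₀eq
    exact htop₀ hS₀eq
  have hI₁t : I₁ ≠ ⊤ := by
    intro h
    rw [h, ENNReal.mul_top (by simpa using hM₁pos)] at hS₁eq
    exact htop₁ hS₁eq
  have hIt : I ≠ ⊤ := by
    intro h
    rw [h, ENNReal.mul_top (by simpa using hMpos)] at hTeq
    exact htopT hTeq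
  -- pass to reals
  have e₀ : (volume S₀).toReal = M₀ * I₀.toReal := by
    rw [hS₀eq, ENNReal.toReal_mul, ENNReal.toReal_ofReal hM₀pos.le]
  have e₁ : (volume S₁).toReal = M₁ * I₁.toReal := by
    rw [hS₁eq, ENNReal.toReal_mul, ENNReal.toReal_ofReal hM₁pos.le]
  have eT : (volume T).toReal = M * I.toReal := by
    rw [hTeq, ENNReal.toReal_mul, ENNReal.toReal_ofReal hMpos.le]
  have hIreal : p * I₀.toReal + q * I₁.toReal ≤ I.toReal := by
    have := ENNReal.toReal_mono hIt hI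
    rw [ENNReal.toReal_add (ENNReal.mul_ne_top ENNReal.ofReal_ne_top hI₀t)
      (ENNReal.mul_ne_top ENNReal.ofReal_ne_top hI₁t), ENNReal.toReal_mul, ENNReal.toReal_mul,
      ENNReal.toReal_ofReal hp, ENNReal.toReal_ofReal hq] at this
    exact this
  have ha₀ : 0 ≤ (volume S₀).toReal := ENNReal.toReal_nonneg
  have ha₁ : 0 ≤ (volume S₁).toReal := ENNReal.toReal_nonneg
  have hc := cauchy_aux hp hq hM₀pos hM₁pos ha₀ ha₁
  have hq₀ : (volume S₀).toReal / M₀ = I₀.toReal := by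
    rw [e₀]
    field_simp
  have hq₁ : (volume S₁).toReal / M₁ = I₁.toReal := by
    rw [e₁]
    field_simp
  rw [hq₀, hq₁, ← hM] at hc
  have hfinal : (p * √(volume S₀).toReal + q * √(volume S₁).toReal) ^ 2 ≤ (volume T).toReal := by
    rw [eT]
    refine hc.trans ?_
    exact mul_le_mul_of_nonneg_left hIreal hMpos.le
  exact Real.le_sqrt_of_sq_le hfinal

end Vale.Agent.Lib.P243
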