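import Mathlib

/-! Vertical sections of a compact convex set in (plane) x (line). -/

set_option linter.unusedSectionVars false

namespace Vale.Agent.Lib.P243

open MeasureTheory Set

/-- The plane. -/
abbrev Pl := ℝ × ℝ

/-- The vertical section of `K` over `y`. -/
def sec {P : Type*} (K : Set (P × ℝ)) (y : P) : Set ℝ := Prod.mk y ⁻¹' K

/-- The shadow of `K` in the plane. -/
def shadow {P : Type*} (K : Set (P × ℝ)) : Set P := Prod.fst '' K

/-- Lower end of the chord over `y`. -/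
noncomputable def lo {P : Type*} (K : Set (P × ℝ)) (y : P) : ℝ := sInf (sec K y)

/-- Upper end of the chord over `y`. -/
noncomputable def hi {P : Type*} (K : Set (P × ℝ)) (y : P) : ℝ := sSup (sec K y)

/-- Length of the chord over `y`. -/
noncomputable def len {P : Type*} (K : Set (P × ℝ)) (y : P) : ℝ := hi K y - lo K y

variable {P : Type*} [NormedAddCommGroup P] [NormedSpace ℝ P] {K : Set (P × ℝ)}

lemma mem_sec {y : P} {z : ℝ} : z ∈ sec K y ↔ (y, z) ∈ K := Iff.rfl

lemma mem_shadow {y : P} : y ∈ shadow K ↔ ∃ z, (y, z) ∈ K := by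
  constructor
  · rintro ⟨⟨y', z⟩, h, rfl⟩
    exact ⟨z, h⟩
  · rintro ⟨z, h⟩
    exact ⟨(y, z), h, rfl⟩

lemma isCompact_sec (hc : IsCompact K) (y : P) : IsCompact (sec K y) := by
  have hcl : IsClosed (sec K y) := hc.isClosed.preimage (by fun_prop)
  refine Metric.isCompact_of_isClosed_isBounded hcl ?_
  have hb := (hc.image continuous_snd).isBounded
  refine hb.subset ?_
  intro z hz
  exact ⟨(y, z), hz, rfl⟩

lemma convex_sec (hv : Convex ℝ K) (y : P) : Convex ℝ (sec K y) := by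
  intro z₁ h₁ z₂ h₂ a b ha hb hab
  have := hv h₁ h₂ ha hb hab
  have e : a • (y, z₁) + b • (y, z₂) = (y, a • z₁ + b • z₂) := by
    ext <;> simp [← add_smul, hab]
  rw [e] at this
  exact this

lemma sec_nonempty {y : P} (hy : y ∈ shadow K) : (sec K y).Nonempty := by
  obtain ⟨z, hz⟩ := mem_shadow.1 hy
  exact ⟨z, hz⟩

lemma lo_mem (hc : IsCompact K) {y : P} (hy : y ∈ shadow K) : (y, lo K y) ∈ K :=
  (isCompact_sec hc y).sInf_mem (sec_nonempty hy)

lemma hi_mem (hc : IsCompact K) {y : P} (hy : y ∈ shadow K) : (y, hi K y) ∈ K :=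
  (isCompact_sec hc y).sSup_mem (sec_nonempty hy)

lemma lo_le (hc : IsCompact K) {y : P} {z : ℝ} (hz : (y, z) ∈ K) : lo K y ≤ z :=
  csInf_le (isCompact_sec hc y).bddBelow hz

lemma le_hi (hc : IsCompact K) {y : P} {z : ℝ} (hz : (y, z) ∈ K) : z ≤ hi K y :=
  le_csSup (isCompact_sec hc y).bddAbove hz

lemma sub_le_len (hc : IsCompact K) {y : P} {z₁ z₂ : ℝ} (h₁ : (y, z₁) ∈ K) (h₂ : (y, z₂) ∈ K) :
    z₂ - z₁ ≤ len K y := by
  have := lo_le hc h₁
  have := le_hi hc h₂
  unfold len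
  linarith

lemma len_nonneg (hc : IsCompact K) {y : P} (hy : y ∈ shadow K) : 0 ≤ len K y := by
  have := sub_le_len hc (lo_mem hc hy) (lo_mem hc hy)
  simpa using this

lemma sec_eq_Icc (hc : IsCompact K) (hv : Convex ℝ K) {y : P} (hy : y ∈ shadow K) :
    sec K y = Icc (lo K y) (hi K y) := by
  apply Subset.antisymm
  · intro z hz
    exact ⟨lo_le hc hz, le_hi hc hz⟩
  · have := (convex_sec hv y).ordConnected
    exact this.out (lo_mem hc hy) (hi_mem hc hy)

lemma volume_sec (hc : IsCompact K) (hv : Convex ℝ K) {y : P} (hy : y ∈ shadow K) :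
    volume (sec K y) = ENNReal.ofReal (len K y) := by
  rw [sec_eq_Icc hc hv hy, Real.volume_Icc]
  rfl

lemma sec_empty {y : P} (hy : y ∉ shadow K) : sec K y = ∅ := by
  ext z
  simp only [mem_empty_iff_false, iff_false]
  intro hz
  exact hy (mem_shadow.2 ⟨z, hz⟩)

lemma isCompact_shadow (hc : IsCompact K) : IsCompact (shadow K) :=
  hc.image continuous_fst

lemma convex_shadow (hv : Convex ℝ K) : Convex ℝ (shadow K) :=
  hv.linear_image (LinearMap.fst ℝ P ℝ)

/-- Concavity of the chord length, in the form used below. -/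
lemma len_comb (hc : IsCompact K) (hv : Convex ℝ K) {d f : P} (hd : d ∈ shadow K)
    (hf : f ∈ shadow K) {s t : ℝ} (hs : 0 ≤ s) (ht : 0 ≤ t) (hst : s + t = 1) :
    s * len K d + t * len K f ≤ len K (s • d + t • f) := by
  have e : ∀ z₁ z₂ : ℝ, s • ((d, z₁) : P × ℝ) + t • ((f, z₂) : P × ℝ)
      = (s • d + t • f, s * z₁ + t * z₂) := by
    intro z₁ z₂
    ext <;> simp
  have h1 := hv (lo_mem hc hd) (lo_mem hc hf) hs ht hst
  have h2 := hv (hi_mem hc hd) (hi_mem hc hf) hs ht hst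
  rw [e] at h1 h2
  have := sub_le_len hc h1 h2
  unfold len at this ⊢
  nlinarith

lemma mem_shadow_comb (hv : Convex ℝ K) {d f : P} (hd : d ∈ shadow K)
    (hf : f ∈ shadow K) {s t : ℝ} (hs : 0 ≤ s) (ht : 0 ≤ t) (hst : s + t = 1) :
    s • d + t • f ∈ shadow K := convex_shadow hv hd hf hs ht hst

/-- There is a longest vertical chord. -/
lemma exists_longest (hc : IsCompact K) (hne : K.Nonempty) :
    ∃ y₀ ∈ shadow K, ∀ y ∈ shadow K, len K y ≤ len K y₀ := by
  have hcomp : IsCompact (shadow K) := isCompact_shadow hc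
  -- consider pairs of points on the same vertical line
  let C : Set ((P × ℝ) × (P × ℝ)) := (K ×ˢ K) ∩ {p | p.1.1 = p.2.1}
  have hC : IsCompact C := by
    apply (hc.prod hc).inter_right
    exact isClosed_eq (by fun_prop) (by fun_prop)
  obtain ⟨w, hw⟩ := hne
  have hCne : C.Nonempty := ⟨(w, w), ⟨hw, hw⟩, rfl⟩
  obtain ⟨p, hp, hmax⟩ := hC.exists_isMaxOn hCne
    (f := fun p : (P × ℝ) × (P × ℝ) => p.2.2 - p.1.2) (by fun_prop)
  have hp1 : p.1 ∈ K := hp.1.1
  have hp2 : p.2 ∈ K := hp.1.2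
  have hp12 : p.1.1 = p.2.1 := hp.2
  refine ⟨p.1.1, mem_shadow.2 ⟨p.1.2, hp1⟩, ?_⟩
  intro y hy
  have hq : ((y, lo K y), (y, hi K y)) ∈ C := ⟨⟨lo_mem hc hy, hi_mem hc hy⟩, rfl⟩
  have h3 : hi K y - lo K y ≤ p.2.2 - p.1.2 := hmax hq
  have hp2' : (p.1.1, p.2.2) ∈ K := by
    rw [hp12]
    exact hp2
  have h4 : p.2.2 - p.1.2 ≤ len K p.1.1 := sub_le_len hc hp1 hp2'
  unfold len
  unfold len at h4
  linarith

end Vale.Agent.Lib.P243
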