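import Vale.Agent.Lib.P243.RidgeVolume

/-! Affine normalization of a convex body by a simplex of maximal volume. -/

namespace Vale.Agent.Lib.P243

open MeasureTheory Set Matrix

/-- The edge matrix of a quadruple of points. -/
def edgeMat (q : Fin 4 → R3) : Matrix (Fin 3) (Fin 3) ℝ :=
  Matrix.of fun i j => q j.succ i - q 0 i

lemma continuous_edge_det : Continuous fun q : Fin 4 → R3 => |(edgeMat q).det| := by
  apply Continuous.abs
  apply Continuous.matrix_det
  apply continuous_matrix
  intro i j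
  simp only [edgeMat, Matrix.of_apply]
  fun_prop

lemma edgeMat_update (q : Fin 4 → R3) (m : Fin 3) (x : R3) :
    edgeMat (Function.update q m.succ x) = (edgeMat q).updateCol m (x - q 0) := by
  ext i j
  by_cases hj : j = m
  · subst hj
    simp [edgeMat, Matrix.updateCol_apply, Function.update_of_ne (Fin.succ_ne_zero j).symm]
  · have hne : j.succ ≠ m.succ := fun h => hj (Fin.succ_injective _ h)
    simp [edgeMat, Matrix.updateCol_apply, hj, Function.update_of_ne hne,
      Function.update_of_ne (Fin.succ_ne_zero m).symm]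

/-- Existence of a simplex of maximal volume; its volume is positive. -/
lemma exists_max_simplex {K : Set R3} (hc : IsCompact K) (hi : (interior K).Nonempty) :
    ∃ q : Fin 4 → R3, (∀ j, q j ∈ K) ∧ (edgeMat q).det ≠ 0 ∧
      ∀ q' : Fin 4 → R3, (∀ j, q' j ∈ K) → |(edgeMat q').det| ≤ |(edgeMat q).det| := by
  have hP : IsCompact (Set.pi univ fun _ : Fin 4 => K) := isCompact_univ_pi fun _ => hc
  obtain ⟨x, hx⟩ := hi
  have hxK : x ∈ K := interior_subset hx
  have hPne : (Set.pi univ fun _ : Fin 4 => K).Nonempty :=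
    ⟨fun _ => x, fun _ _ => hxK⟩
  obtain ⟨q, hq, hmax⟩ := hP.exists_isMaxOn hPne continuous_edge_det.continuousOn
  have hqK : ∀ j, q j ∈ K := fun j => hq j (mem_univ j)
  refine ⟨q, hqK, ?_, ?_⟩
  · -- a small simplex around `x` has nonzero determinant
    obtain ⟨r, hr, hball⟩ := Metric.isOpen_iff.1 isOpen_interior x hx
    set ε := r / 2 with hε
    have hε0 : 0 < ε := by positivity
    set q₀ : Fin 4 → R3 := Fin.cons x (fun j => x + ε • bv j) with hq₀
    have hq₀K : ∀ j, q₀ j ∈ K := by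
      intro j
      refine Fin.cases ?_ (fun j => ?_) j
      · simpa [hq₀] using hxK
      · simp only [hq₀, Fin.cons_succ]
        apply interior_subset
        apply hball
        rw [Metric.mem_ball, dist_self_add_left, norm_smul, Real.norm_eq_abs, abs_of_pos hε0]
        have : ‖bv j‖ ≤ 1 := by
          rw [pi_norm_le_iff_of_nonneg zero_le_one]
          intro m
          simp only [bv, Pi.single_apply]
          split_ifs <;> simp
        have h2 : ε * ‖bv j‖ ≤ ε * 1 := mul_le_mul_of_nonneg_left this hε0.le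
        rw [hε] at h2 ⊢
        linarith
    have hdet : edgeMat q₀ = ε • (1 : Matrix (Fin 3) (Fin 3) ℝ) := by
      ext i j
      simp [edgeMat, hq₀, bv, Pi.single_apply, Matrix.one_apply, eq_comm]
    have h1 : |(edgeMat q₀).det| ≤ |(edgeMat q).det| := hmax fun j _ => hq₀K j
    intro h0
    rw [h0, abs_zero, hdet, Matrix.det_smul, Matrix.det_one] at h1
    simp at h1
    have h5 : 0 < |ε| ^ 3 := by positivity
    linarith
  · intro q' hq'
    exact hmax fun j _ => hq' j

lemma inv_mulVec_eq_cramer (M : Matrix (Fin 3) (Fin 3) ℝ) (b : R3) (m : Fin 3) :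
    (M⁻¹ *ᵥ b) m = (M.det)⁻¹ * (M.updateCol m b).det := by
  rw [Matrix.inv_def, Matrix.smul_mulVec, ← Matrix.cramer_eq_adjugate_mulVec, Pi.smul_apply,
    Matrix.cramer_apply, Ring.inverse_eq_inv', smul_eq_mul]

/-- A linear equivalence from an invertible matrix. -/
noncomputable def matEquiv (M : Matrix (Fin 3) (Fin 3) ℝ) (hM : M.det ≠ 0) : R3 ≃ₗ[ℝ] R3 :=
  LinearEquiv.ofLinear (Matrix.toLin' M⁻¹) (Matrix.toLin' M)
    (by
      rw [← Matrix.toLin'_mul, Matrix.nonsing_inv_mul _ (Ne.isUnit hM), Matrix.toLin'_one])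
    (by
      rw [← Matrix.toLin'_mul, Matrix.mul_nonsing_inv _ (Ne.isUnit hM), Matrix.toLin'_one])

lemma matEquiv_apply (M : Matrix (Fin 3) (Fin 3) ℝ) (hM : M.det ≠ 0) (x : R3) :
    matEquiv M hM x = M⁻¹ *ᵥ x := rfl

/-- Existence of the normalizing map. -/
lemma exists_normalization {K : Set R3} (hc : IsCompact K) (hi : (interior K).Nonempty) :
    ∃ (Θ : R3 ≃ₗ[ℝ] R3) (p : R3), (0 : R3) ∈ (fun x => Θ x + p) '' K ∧
      (∀ m, bv m ∈ (fun x => Θ x + p) '' K) ∧
      ∀ x ∈ (fun x => Θ x + p) '' K, ∀ m, |x m| ≤ 1 := by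
  obtain ⟨q, hq, hdet, hmax⟩ := exists_max_simplex hc hi
  set M := edgeMat q with hM
  refine ⟨matEquiv M hdet, - matEquiv M hdet (q 0), ?_, ?_, ?_⟩
  · exact ⟨q 0, hq 0, by simp⟩
  · intro m
    refine ⟨q m.succ, hq _, ?_⟩
    have hb : M *ᵥ bv m = q m.succ - q 0 := by
      ext i
      simp [hM, edgeMat, bv, Matrix.mulVec, dotProduct, Pi.single_apply]
    simp only [← map_neg, ← map_add, ← sub_eq_add_neg]
    rw [matEquiv_apply, ← hb, Matrix.mulVec_mulVec, Matrix.nonsing_inv_mul _ (Ne.isUnit hdet),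
      Matrix.one_mulVec]
  · rintro _ ⟨x, hx, rfl⟩ m
    simp only [← map_neg, ← map_add, ← sub_eq_add_neg]
    rw [matEquiv_apply, inv_mulVec_eq_cramer, abs_mul, abs_inv, inv_mul_le_iff₀ (abs_pos.2 hdet),
      mul_one, ← edgeMat_update]
    apply hmax
    intro j
    by_cases hj : j = m.succ
    · subst hj
      simpa using hx
    · rw [Function.update_of_ne hj]
      exact hq j

/-- Volume of an affine image, for an arbitrary set. -/
lemma volume_affine_image (Λ : R3 ≃ₗ[ℝ] R3) (p : R3) (S : Set R3) :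
    volume ((fun x => Λ x + p) '' S)
      = ENNReal.ofReal |LinearMap.det (Λ : R3 →ₗ[ℝ] R3)| * volume S := by
  have e : (fun x => Λ x + p) '' S = (fun y => y + p) '' ((Λ : R3 →ₗ[ℝ] R3) '' S) := by
    rw [image_image]
    rfl
  rw [e, image_add_right, measure_preimage_add_right, Measure.addHaar_image_linearMap]

/-- A normalized convex body contains a small cube. -/
lemma volume_normalized_ge {K : Set R3} (hv : Convex ℝ K) (h0 : (0 : R3) ∈ K)
    (he : ∀ m, bv m ∈ K) : ENNReal.ofReal (1 / 27) ≤ volume K := by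
  have hsub : Icc (0 : R3) (fun _ => 1 / 3) ⊆ K := by
    intro x hx
    have hx0 : ∀ m, 0 ≤ x m := fun m => hx.1 m
    have hx1 : ∀ m, x m ≤ 1 / 3 := fun m => hx.2 m
    let w : Fin 4 → ℝ := ![x 0, x 1, x 2, 1 - x 0 - x 1 - x 2]
    let z : Fin 4 → R3 := ![bv 0, bv 1, bv 2, 0]
    have hw0 : ∀ i ∈ (Finset.univ : Finset (Fin 4)), 0 ≤ w i := by
      intro i _
      fin_cases i
      · exact hx0 0
      · exact hx0 1
      · exact hx0 2
      · have h1 := hx1 0
        have h2 := hx1 1
        have h3 := hx1 2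
        simp only [w]
        show 0 ≤ 1 - x 0 - x 1 - x 2
        linarith
    have hw1 : ∑ i, w i = 1 := by
      simp [w, Fin.sum_univ_four]
    have hz : ∀ i ∈ (Finset.univ : Finset (Fin 4)), z i ∈ K := by
      intro i _
      fin_cases i
      · exact he 0
      · exact he 1
      · exact he 2
      · exact h0
    have := hv.sum_mem hw0 hw1 hz
    have e : ∑ i, w i • z i = x := by
      ext m
      fin_cases m <;> simp [w, z, Fin.sum_univ_four, bv]
    rwa [e] at this
  refine le_trans (le_of_eq ?_) (measure_mono hsub)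
  rw [Real.volume_Icc_pi, ← ENNReal.ofReal_prod_of_nonneg (fun _ _ => by norm_num)]
  congr 1
  rw [Fin.prod_univ_three]
  norm_num

/-- The ridge set of a convex body has small relative volume. -/
theorem ridge_volume_relative {K : Set R3} (hc : IsCompact K) (hv : Convex ℝ K)
    (hi : (interior K).Nonempty) {δ : ℝ} (hδ : 0 < δ) (hδ1 : δ ≤ 1) :
    volume (ridge δ K) ≤ ENNReal.ofReal (27 * (72 * 9601 ^ 6 * 8641 ^ 2) * δ ^ 2) * volume K := by
  obtain ⟨Θ, p, h0, he, hb⟩ := exists_normalization hc hi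
  set K' := (fun x => Θ x + p) '' K with hK'
  have hv' : Convex ℝ K' := by
    rintro _ ⟨x, hx, rfl⟩ _ ⟨y, hy, rfl⟩ s t hs ht hst
    refine ⟨s • x + t • y, hv hx hy hs ht hst, ?_⟩
    have ep : p = s • p + t • p := by rw [← add_smul, hst, one_smul]
    simp only [map_add, map_smul, smul_add]
    nth_rewrite 1 [ep]
    abel
  have hback : (fun x => Θ.symm x + (- Θ.symm p)) '' K' = K := by
    rw [hK', image_image]
    have : ∀ x, Θ.symm (Θ x + p) + - Θ.symm p = x := by
      intro x
      simp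
    simp only [this, image_id']
  have h1 : ridge δ K ⊆ (fun x => Θ.symm x + (- Θ.symm p)) '' ridge δ K' := by
    have := ridge_image δ K' Θ.symm (- Θ.symm p)
    rwa [hback] at this
  set c := ENNReal.ofReal |LinearMap.det ((Θ.symm : R3 ≃ₗ[ℝ] R3) : R3 →ₗ[ℝ] R3)| with hc'
  have h2 : volume K = c * volume K' := by
    conv_lhs => rw [← hback]
    rw [volume_affine_image]
  have h3 := ridge_volume_normalized h0 he hb hδ hδ1
  have h4 := volume_normalized_ge hv' h0 he
  calc volume (ridge δ K)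
      ≤ volume ((fun x => Θ.symm x + (- Θ.symm p)) '' ridge δ K') := measure_mono h1
    _ = c * volume (ridge δ K') := volume_affine_image _ _ _
    _ ≤ c * ENNReal.ofReal (72 * 9601 ^ 6 * 8641 ^ 2 * δ ^ 2) := by gcongr
    _ = ENNReal.ofReal (27 * (72 * 9601 ^ 6 * 8641 ^ 2) * δ ^ 2) * (c * ENNReal.ofReal (1 / 27)) := by
        have e : ENNReal.ofReal (72 * 9601 ^ 6 * 8641 ^ 2 * δ ^ 2)
            = ENNReal.ofReal (27 * (72 * 9601 ^ 6 * 8641 ^ 2) * δ ^ 2) * ENNReal.ofReal (1 / 27) := by
          rw [← ENNReal.ofReal_mul (by positivity)]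
          congr 1
          ring
        rw [e]
        ring
    _ ≤ ENNReal.ofReal (27 * (72 * 9601 ^ 6 * 8641 ^ 2) * δ ^ 2) * (c * volume K') := by gcongr
    _ = ENNReal.ofReal (27 * (72 * 9601 ^ 6 * 8641 ^ 2) * δ ^ 2) * volume K := by rw [h2]

end Vale.Agent.Lib.P243
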