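import Vale.Agent.Lib.P243.Section
import Vale.Agent.Lib.P243.Normalize

/-! Assembly of the main bound for cylinder coverings in Euclidean three-space. -/

namespace Vale.Agent.Lib.P243

open MeasureTheory Set

/-- Euclidean three-space. -/
abbrev E3 := EuclideanSpace ℝ (Fin 3)

lemma measure_preimage_le_of_mp {α β : Type*} [MeasurableSpace α] [MeasurableSpace β]
    {μ : Measure α} {ν : Measure β} {f : α → β} (hf : MeasurePreserving f μ ν) (S : Set β) :
    μ (f ⁻¹' S) ≤ ν S := by
  calc μ (f ⁻¹' S) ≤ μ (f ⁻¹' toMeasurable ν S) :=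
        measure_mono (preimage_mono (subset_toMeasurable ν S))
    _ = ν (toMeasurable ν S) :=
        hf.measure_preimage (measurableSet_toMeasurable ν S).nullMeasurableSet
    _ = ν S := measure_toMeasurable S

/-- Coordinates on `R3`, grouped. -/
noncomputable def coordEquiv : R3 ≃ₗ[ℝ] Pl × ℝ where
  toFun x := ((x 0, x 1), x 2)
  invFun p := ![p.1.1, p.1.2, p.2]
  map_add' x y := rfl
  map_smul' c x := rfl
  left_inv x := by
    ext m
    fin_cases m <;> rfl
  right_inv p := rfl

lemma measurePreserving_coordEquiv : MeasurePreserving coordEquiv volume volume := by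
  have h1 := volume_preserving_piFinSuccAbove (fun _ : Fin 3 => ℝ) 2
  have h2 := volume_preserving_finTwoArrow ℝ
  have h3 : MeasurePreserving (Prod.swap : ℝ × (Fin 2 → ℝ) → (Fin 2 → ℝ) × ℝ) volume volume :=
    Measure.measurePreserving_swap
  have h4 : MeasurePreserving (Prod.map (MeasurableEquiv.finTwoArrow : (Fin 2 → ℝ) ≃ᵐ ℝ × ℝ)
      (id : ℝ → ℝ)) volume volume := h2.prod (MeasurePreserving.id volume)
  have h5 := h4.comp (h3.comp h1)
  have e : ⇑coordEquiv = Prod.map (⇑(MeasurableEquiv.finTwoArrow : (Fin 2 → ℝ) ≃ᵐ ℝ × ℝ)) (id : ℝ → ℝ)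
      ∘ Prod.swap ∘ ⇑(MeasurableEquiv.piFinSuccAbove (fun _ : Fin 3 => ℝ) 2) := by
    funext x
    rfl
  rw [e]
  exact h5

/-- An orthonormal frame is an orthonormal basis. -/
noncomputable def frameBasis (u : Fin 3 → E3) (hu : Orthonormal ℝ u) :
    OrthonormalBasis (Fin 3) ℝ E3 :=
  OrthonormalBasis.mk hu (hu.linearIndependent.span_eq_top_of_card_eq_finrank' (by simp)).ge

/-- The orthonormal coordinates of a frame. -/
noncomputable def frameEquiv (u : Fin 3 → E3) (hu : Orthonormal ℝ u) : E3 ≃ₗ[ℝ] Pl × ℝ :=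
  (frameBasis u hu).repr.toLinearEquiv ≪≫ₗ (WithLp.linearEquiv 2 ℝ (Fin 3 → ℝ)) ≪≫ₗ coordEquiv

lemma frameEquiv_apply (u : Fin 3 → E3) (hu : Orthonormal ℝ u) (x : E3) :
    frameEquiv u hu x = ((inner ℝ (u 0) x, inner ℝ (u 1) x), inner ℝ (u 2) x) := by
  have h : ∀ m, (frameBasis u hu).repr x m = inner ℝ (u m) x := by
    intro m
    rw [OrthonormalBasis.repr_apply_apply, frameBasis, OrthonormalBasis.coe_mk]
  simp only [← h]
  rfl

lemma measurePreserving_frameEquiv (u : Fin 3 → E3) (hu : Orthonormal ℝ u) :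
    MeasurePreserving (frameEquiv u hu) volume volume := by
  have h1 := (frameBasis u hu).measurePreserving_repr
  have h2 := PiLp.volume_preserving_ofLp (Fin 3)
  exact measurePreserving_coordEquiv.comp (h2.comp h1)

/-- Euclidean space as coordinate space. -/
noncomputable def flatEquiv : E3 ≃ₗ[ℝ] R3 := WithLp.linearEquiv 2 ℝ (Fin 3 → ℝ)

lemma measurePreserving_flatEquiv : MeasurePreserving flatEquiv volume volume :=
  PiLp.volume_preserving_ofLp (Fin 3)

lemma measurePreserving_flatEquiv_symm : MeasurePreserving flatEquiv.symm volume volume :=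
  PiLp.volume_preserving_toLp (Fin 3)

lemma continuous_linearEquiv {A B : Type*} [NormedAddCommGroup A] [NormedSpace ℝ A]
    [NormedAddCommGroup B] [NormedSpace ℝ B] [FiniteDimensional ℝ A] (Θ : A ≃ₗ[ℝ] B) :
    Continuous Θ := Θ.toLinearMap.continuous_of_finiteDimensional

/-- The ridge set in Euclidean space has small relative volume. -/
theorem ridge_volume_E3 {K : Set E3} (hc : IsCompact K) (hv : Convex ℝ K)
    (hi : (interior K).Nonempty) {δ : ℝ} (hδ : 0 < δ) (hδ1 : δ ≤ 1) :
    volume (ridge δ K) ≤ ENNReal.ofReal (27 * (72 * 9601 ^ 6 * 8641 ^ 2) * δ ^ 2) * volume K := by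
  set K' : Set R3 := flatEquiv '' K with hK'
  have hcont : Continuous flatEquiv := continuous_linearEquiv _
  have hcont' : Continuous flatEquiv.symm := continuous_linearEquiv _
  have hKc' : IsCompact K' := hc.image hcont
  have hKv' : Convex ℝ K' := hv.linear_image flatEquiv.toLinearMap
  have hKi' : (interior K').Nonempty := by
    obtain ⟨x, hx⟩ := hi
    refine ⟨flatEquiv x, mem_interior.2 ⟨flatEquiv '' interior K,
      image_mono interior_subset, ?_, mem_image_of_mem _ hx⟩⟩
    have : flatEquiv '' interior K = flatEquiv.symm ⁻¹' interior K := by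
      exact LinearEquiv.image_eq_preimage_symm _ _
    rw [this]
    exact isOpen_interior.preimage hcont'
  have hback : (fun x => flatEquiv.symm x + 0) '' K' = K := by
    rw [hK', image_image]
    simp
  have h1 : ridge δ K ⊆ flatEquiv ⁻¹' ridge δ K' := by
    have h2 := ridge_image δ K' flatEquiv.symm 0
    rw [hback] at h2
    intro x hx
    obtain ⟨y, hy, rfl⟩ := h2 hx
    simpa using hy
  have h3 : volume K' = volume K := by
    have : flatEquiv ⁻¹' K' = K := by
      rw [hK']
      exact preimage_image_eq _ flatEquiv.injective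
    rw [← this]
    exact (measurePreserving_flatEquiv.measure_preimage hKc'.measurableSet.nullMeasurableSet).symm
  calc volume (ridge δ K) ≤ volume (flatEquiv ⁻¹' ridge δ K') := measure_mono h1
    _ ≤ volume (ridge δ K') := measure_preimage_le_of_mp measurePreserving_flatEquiv _
    _ ≤ ENNReal.ofReal (27 * (72 * 9601 ^ 6 * 8641 ^ 2) * δ ^ 2) * volume K' :=
        ridge_volume_relative hKc' hKv' hKi' hδ hδ1
    _ = ENNReal.ofReal (27 * (72 * 9601 ^ 6 * 8641 ^ 2) * δ ^ 2) * volume K := by rw [h3]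

/-- Bound for one cylinder, in Euclidean space. -/
theorem one_cylinder {K : Set E3} (hc : IsCompact K) (hv : Convex ℝ K) (hne : K.Nonempty)
    (hV0 : volume K ≠ 0) (u : Fin 3 → E3) (hu : Orthonormal ℝ u)
    {h : ℝ} (hh0 : 0 < h) (hh1 : h ≤ 1 / 16) {Y : Set E3} (hY : ridge (3 * h) K ⊆ Y)
    (hYm : MeasurableSet Y) (B : Set Pl) :
    volume ((K \ Y) ∩ (fun x => (inner ℝ (u 0) x, inner ℝ (u 1) x)) ⁻¹' B)
        * volume ((fun x => (inner ℝ (u 0) x, inner ℝ (u 1) x)) '' K)
      ≤ volume B * (ENNReal.ofReal (3 / (1 + h / 4)) * volume K) := by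
  set Θ := frameEquiv u hu with hΘ
  have hmp : MeasurePreserving Θ volume volume := measurePreserving_frameEquiv u hu
  have hcont : Continuous Θ := continuous_linearEquiv _
  have hcont' : Continuous Θ.symm := continuous_linearEquiv _
  set K' : Set (Pl × ℝ) := Θ '' K with hK'
  set Y' : Set (Pl × ℝ) := Θ.symm ⁻¹' Y with hY'
  have hKc' : IsCompact K' := hc.image hcont
  have hKv' : Convex ℝ K' := hv.linear_image Θ.toLinearMap
  have hKne' : K'.Nonempty := hne.image _
  have hvol : volume K' = volume K := by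
    have : Θ ⁻¹' K' = K := by
      rw [hK']
      exact preimage_image_eq _ Θ.injective
    rw [← this]
    exact (hmp.measure_preimage hKc'.measurableSet.nullMeasurableSet).symm
  have hV0' : volume K' ≠ 0 := by rwa [hvol]
  have hA0 : volume (shadow K') ≠ 0 := by
    intro h0
    apply hV0'
    have hsub : K' ⊆ shadow K' ×ˢ (univ : Set ℝ) := fun w hw => ⟨⟨w, hw, rfl⟩, mem_univ _⟩
    refine measure_mono_null hsub ?_
    rw [Measure.volume_eq_prod, Measure.prod_prod, h0, zero_mul]
  have hshadow : shadow K' = (fun x => (inner ℝ (u 0) x, inner ℝ (u 1) x)) '' K := by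
    rw [shadow, hK', image_image]
    apply image_congr
    intro x _
    rw [hΘ, frameEquiv_apply]
  have hYr : ridge (3 * h) K' ⊆ Y' := by
    have h2 := ridge_image (3 * h) K Θ 0
    simp only [add_zero, image_id'] at h2
    intro x hx
    obtain ⟨y, hy, rfl⟩ := h2 hx
    simpa [hY'] using hY hy
  have hYm' : MeasurableSet Y' := hcont'.measurable hYm
  have hmain := cylinder_bound hKc' hKv' hKne' hA0 hV0' hh0 hh1 hYr hYm' B
  rw [hvol, hshadow] at hmain
  refine le_trans ?_ hmain
  gcongr
  refine le_trans (measure_mono ?_) (measure_preimage_le_of_mp hmp _)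
  rintro x ⟨⟨hxK, hxY⟩, hxB⟩
  refine ⟨⟨⟨x, hxK, rfl⟩, ?_⟩, ?_⟩
  · simpa [hY'] using hxY
  · simp only [mem_preimage, hΘ, frameEquiv_apply]
    exact hxB

/-- The gain in the constant. -/
noncomputable def gain : ℝ := 1 / (72 * (27 * (72 * 9601 ^ 6 * 8641 ^ 2)))

/-- Main bound for finite coverings by cylinders. -/
theorem main_bound {ι : Type*} [Fintype ι] (K : Set E3) (hc : IsCompact K) (hv : Convex ℝ K)
    (hint : (interior K).Nonempty) (e : ι → Fin 3 → E3) (he : ∀ i, Orthonormal ℝ (e i))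
    (B : ι → Set Pl)
    (hcov : ∀ x ∈ K, ∃ i, (inner ℝ (e i 0) x, inner ℝ (e i 1) x) ∈ B i) :
    ENNReal.ofReal (1 / 3 + 1 / 10 ^ 39) ≤
      ∑ i, volume (B i) / volume ((fun x => (inner ℝ (e i 0) x, inner ℝ (e i 1) x)) '' K) := by
  have hne : K.Nonempty := hint.mono interior_subset
  have hV0 : volume K ≠ 0 := by
    have := isOpen_interior.measure_pos volume hint
    exact (this.trans_le (measure_mono interior_subset)).ne'
  have hVt : volume K ≠ ⊤ := hc.measure_lt_top.ne
  set h := gain with hh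
  have hh0 : 0 < h := by
    rw [hh, gain]
    positivity
  have hh1 : h ≤ 1 / 16 := by
    rw [hh, gain]
    norm_num
  set Y := toMeasurable volume (ridge (3 * h) K) with hY
  have hYm : MeasurableSet Y := measurableSet_toMeasurable _ _
  have hYr : ridge (3 * h) K ⊆ Y := subset_toMeasurable _ _
  have hYvol : volume Y ≤ ENNReal.ofReal (h / 8) * volume K := by
    rw [hY, measure_toMeasurable]
    refine (ridge_volume_E3 hc hv hint (by positivity) (by linarith)).trans ?_
    apply le_of_eq
    congr 2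
    rw [hh, gain]
    norm_num
  set κ := ENNReal.ofReal (3 / (1 + h / 4)) with hκ
  set R := ∑ i, volume (B i) / volume ((fun x => (inner ℝ (e i 0) x, inner ℝ (e i 1) x)) '' K)
    with hR
  have hterm : ∀ i, volume ((K \ Y) ∩ (fun x => (inner ℝ (e i 0) x, inner ℝ (e i 1) x)) ⁻¹' B i)
      ≤ volume (B i) / volume ((fun x => (inner ℝ (e i 0) x, inner ℝ (e i 1) x)) '' K)
        * (κ * volume K) := by
    intro i
    have h1 := one_cylinder hc hv hne hV0 (e i) (he i) hh0 hh1 hYr hYm (B i)
    set A := volume ((fun x => (inner ℝ (e i 0) x, inner ℝ (e i 1) x)) '' K) with hA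
    have hA0 : A ≠ 0 := by
      intro h0
      have h2 : (fun x => (inner ℝ (e i 0) x, inner ℝ (e i 1) x)) '' K = shadow (frameEquiv (e i) (he i) '' K) := by
        rw [shadow, image_image]
        apply image_congr
        intro x _
        rw [frameEquiv_apply]
      rw [hA, h2] at h0
      have hmp := measurePreserving_frameEquiv (e i) (he i)
      have hsub : K ⊆ frameEquiv (e i) (he i) ⁻¹' (shadow (frameEquiv (e i) (he i) '' K) ×ˢ (univ : Set ℝ)) :=
        fun x hx => ⟨⟨_, ⟨x, hx, rfl⟩, rfl⟩, mem_univ _⟩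
      apply hV0
      refine measure_mono_null hsub ?_
      rw [← nonpos_iff_eq_zero]
      refine (measure_preimage_le_of_mp hmp _).trans (le_of_eq ?_)
      rw [Measure.volume_eq_prod, Measure.prod_prod, h0, zero_mul]
    have hAt : A ≠ ⊤ := by
      have hcomp : IsCompact ((fun x => (inner ℝ (e i 0) x, inner ℝ (e i 1) x)) '' K) :=
        hc.image (by fun_prop)
      exact hcomp.measure_lt_top.ne
    calc volume ((K \ Y) ∩ (fun x => (inner ℝ (e i 0) x, inner ℝ (e i 1) x)) ⁻¹' B i)
        = volume ((K \ Y) ∩ (fun x => (inner ℝ (e i 0) x, inner ℝ (e i 1) x)) ⁻¹' B i) * A * A⁻¹ := by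
          rw [mul_assoc, ENNReal.mul_inv_cancel hA0 hAt, mul_one]
      _ ≤ (volume (B i) * (κ * volume K)) * A⁻¹ := by gcongr
      _ = volume (B i) / A * (κ * volume K) := by
          rw [div_eq_mul_inv]
          ring
  have hW : volume (K \ Y) ≤ R * (κ * volume K) := by
    have hsub : K \ Y ⊆ ⋃ i, (K \ Y) ∩ (fun x => (inner ℝ (e i 0) x, inner ℝ (e i 1) x)) ⁻¹' B i := by
      intro x hx
      obtain ⟨i, hi⟩ := hcov x hx.1
      exact mem_iUnion.2 ⟨i, hx, hi⟩
    calc volume (K \ Y)
        ≤ volume (⋃ i, (K \ Y) ∩ (fun x => (inner ℝ (e i 0) x, inner ℝ (e i 1) x)) ⁻¹' B i) :=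
          measure_mono hsub
      _ ≤ ∑ i, volume ((K \ Y) ∩ (fun x => (inner ℝ (e i 0) x, inner ℝ (e i 1) x)) ⁻¹' B i) :=
          measure_iUnion_fintype_le _ _
      _ ≤ ∑ i, volume (B i) / volume ((fun x => (inner ℝ (e i 0) x, inner ℝ (e i 1) x)) '' K)
            * (κ * volume K) := Finset.sum_le_sum fun i _ => hterm i
      _ = R * (κ * volume K) := by rw [hR, Finset.sum_mul]
  have hcover : volume K ≤ (R * κ + ENNReal.ofReal (h / 8)) * volume K := by
    have hsub : K ⊆ (K \ Y) ∪ Y := by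
      intro x hx
      by_cases hxY : x ∈ Y
      · exact Or.inr hxY
      · exact Or.inl ⟨hx, hxY⟩
    calc volume K ≤ volume ((K \ Y) ∪ Y) := measure_mono hsub
      _ ≤ volume (K \ Y) + volume Y := measure_union_le _ _
      _ ≤ R * (κ * volume K) + ENNReal.ofReal (h / 8) * volume K := add_le_add hW hYvol
      _ = (R * κ + ENNReal.ofReal (h / 8)) * volume K := by ring
  have hone : 1 ≤ R * κ + ENNReal.ofReal (h / 8) := by
    have h2 : 1 * volume K ≤ (R * κ + ENNReal.ofReal (h / 8)) * volume K := by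
      rwa [one_mul]
    exact (ENNReal.mul_le_mul_iff_left hV0 hVt).1 h2
  by_contra hcon
  push_neg at hcon
  have hRt : R ≠ ⊤ := (hcon.trans ENNReal.ofReal_lt_top).ne
  obtain ⟨r, hr0, hr⟩ : ∃ r : ℝ, 0 ≤ r ∧ R = ENNReal.ofReal r :=
    ⟨R.toReal, ENNReal.toReal_nonneg, (ENNReal.ofReal_toReal hRt).symm⟩
  rw [hr] at hcon hone
  have hrlt : r < 1 / 3 + 1 / 10 ^ 39 :=
    (ENNReal.ofReal_lt_ofReal_iff (by positivity)).1 hcon
  rw [hκ, ← ENNReal.ofReal_mul hr0, ← ENNReal.ofReal_add (by positivity) (by positivity),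
    ← ENNReal.ofReal_one, ENNReal.ofReal_le_ofReal_iff (by positivity)] at hone
  have hnum : (1 / 3 + 1 / 10 ^ 39) * (3 / (1 + h / 4)) + h / 8 < 1 := by
    rw [hh, gain]
    norm_num
  have hκpos : 0 < 3 / (1 + h / 4) := by positivity
  have := mul_lt_mul_of_pos_right hrlt hκpos
  linarith

end Vale.Agent.Lib.P243
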