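import Vale.Agent.Lib.P243.BM

/-! The sharp bound for the part of a convex body inside one cylinder: if the base has relative
area `β`, the cylinder contains at most the fraction `3 β - 2 β √β` of the volume. -/

namespace Vale.Agent.Lib.P243

open MeasureTheory Set Filter Topology
open scoped Pointwise

variable {K : Set (Pl × ℝ)}

/-- Integral of the square of an affine function vanishing at `T`. -/
lemma integral_cone {c T u v : ℝ} (hc : 0 ≤ c) (hT : 0 < T) (huv : u ≤ v) :
    ∫⁻ t in Ioo u v, ENNReal.ofReal (c * (1 - t / T) ^ 2)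
      = ENNReal.ofReal (c * T / 3 * ((1 - u / T) ^ 3 - (1 - v / T) ^ 3)) := by
  have hcont : Continuous fun t : ℝ => c * (1 - t / T) ^ 2 := by fun_prop
  have hnn : ∀ t, 0 ≤ c * (1 - t / T) ^ 2 := fun t => by positivity
  have hint : IntegrableOn (fun t : ℝ => c * (1 - t / T) ^ 2) (Ioo u v) :=
    (hcont.continuousOn.integrableOn_compact isCompact_Icc).mono_set Ioo_subset_Icc_self
  rw [← ofReal_integral_eq_lintegral_ofReal hint (Eventually.of_forall hnn)]
  congr 1
  rw [← integral_Ioc_eq_integral_Ioo, ← intervalIntegral.integral_of_le huv]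
  have hder : ∀ t ∈ uIcc u v, HasDerivAt (fun t : ℝ => -(c * T / 3) * (1 - t / T) ^ 3)
      (c * (1 - t / T) ^ 2) t := by
    intro t _
    have h1 : HasDerivAt (fun x : ℝ => 1 - x / T) (-(1 / T)) t := by
      simpa using ((hasDerivAt_id' t).div_const T).const_sub 1
    have h2 := (h1.fun_pow 3).const_mul (-(c * T / 3))
    refine h2.congr_deriv ?_
    generalize 1 - t / T = w
    push_cast
    field_simp
  rw [intervalIntegral.integral_eq_sub_of_hasDerivAt hder (hcont.intervalIntegrable _ _)]
  ring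

lemma lev_zero (hc : IsCompact K) : lev K 0 = shadow K := by
  ext y
  exact ⟨fun h => h.1, fun h => ⟨h, len_nonneg hc h⟩⟩

/-- Concavity of the square root of the area of level sets. -/
lemma sqrt_area_concave (hc : IsCompact K) (hv : Convex ℝ K) {r t : ℝ} (hr : 0 ≤ r) (ht : 0 ≤ t)
    (h₀ : volume (lev K r) ≠ 0) (h₁ : volume (lev K t) ≠ 0) {p q : ℝ} (hp : 0 ≤ p) (hq : 0 ≤ q)
    (hpq : p + q = 1) :
    p * √(volume (lev K r)).toReal + q * √(volume (lev K t)).toReal
      ≤ √(volume (lev K (p * r + q * t))).toReal := by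
  have hm : 0 ≤ p * r + q * t := by positivity
  refine planar_bm (isCompact_lev hc hv hr) (lev_convex hc hv r) (isCompact_lev hc hv ht)
    (lev_convex hc hv t) (isCompact_lev hc hv hm) (lev_convex hc hv _) h₀ h₁ hp hq hpq ?_
  intro w₀ hw₀ w₁ hw₁
  exact lev_comb hc hc hc (fun u hu v hv' => hv hu hv' hp hq hpq) hp hq hw₀ hw₁

/-- The main calculation, in terms of real numbers. -/
lemma phi_real {A T s i₁ i₂ b τ : ℝ} (hA : 0 ≤ A) (hT : 0 < T) (hs0 : 0 ≤ s) (hs1 : s ≤ 1)
    (hb : b = s ^ 2 * A) (hτ : τ = T * (1 - s))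
    (h₁ : A * T / 3 * (1 - s ^ 3) ≤ i₁) (h₂ : i₂ ≤ A * T / 3 * s ^ 3) :
    b * τ + i₂ ≤ (3 * s ^ 2 - 2 * s ^ 3) * (i₁ + i₂) := by
  have hΦ0 : 0 ≤ 3 * s ^ 2 - 2 * s ^ 3 := by
    have : 3 * s ^ 2 - 2 * s ^ 3 = s ^ 2 * (3 - 2 * s) := by ring
    rw [this]
    exact mul_nonneg (by positivity) (by linarith)
  have hΦ1 : 0 ≤ 1 - (3 * s ^ 2 - 2 * s ^ 3) := by
    have : 1 - (3 * s ^ 2 - 2 * s ^ 3) = (1 - s) ^ 2 * (1 + 2 * s) := by ring
    rw [this]
    positivity
  have h3 := mul_le_mul_of_nonneg_left h₁ hΦ0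
  have h4 := mul_le_mul_of_nonneg_left h₂ hΦ1
  subst hb hτ
  nlinarith

/-- The fraction of the volume in a cylinder over a measurable base of relative area `β`. -/
theorem cylinder_phi (hc : IsCompact K) (hv : Convex ℝ K) (hV0 : volume K ≠ 0)
    (hA0 : volume (shadow K) ≠ 0) {B : Set Pl} (hB : MeasurableSet B) {s : ℝ} (hs0 : 0 < s)
    (hs1 : s < 1) (hb : volume B = ENNReal.ofReal (s ^ 2) * volume (shadow K)) :
    volume (K ∩ Prod.fst ⁻¹' B) ≤ ENNReal.ofReal (3 * s ^ 2 - 2 * s ^ 3) * volume K := by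
  have hKm : MeasurableSet K := hc.measurableSet
  have hvolK : volume K = ∫⁻ y, volume (sec K y) := by
    rw [Measure.volume_eq_prod, Measure.prod_apply hKm]
    rfl
  have hAt : volume (shadow K) ≠ ⊤ := (isCompact_shadow hc).measure_lt_top.ne
  set A := (volume (shadow K)).toReal with hA
  have hApos : 0 < A := ENNReal.toReal_pos hA0 hAt
  have hAeq : volume (shadow K) = ENNReal.ofReal A := (ENNReal.ofReal_toReal hAt).symm
  set a : ℝ → ENNReal := fun t => volume (lev K t) with ha
  have ha_anti : ∀ {r t : ℝ}, r ≤ t → a t ≤ a r := fun h => measure_mono (lev_anti h)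
  set b := (s ^ 2) * A with hbdef
  have hbeq : volume B = ENNReal.ofReal b := by
    rw [hb, hAeq, ← ENNReal.ofReal_mul (by positivity), hbdef]
  have hbpos : 0 < b := by positivity
  have ha0 : a 0 = ENNReal.ofReal A := by
    simp only [ha]
    rw [lev_zero hc, hAeq]
  have hne : K.Nonempty := nonempty_iff_ne_empty.2 fun h => hV0 (by rw [h]; simp)
  obtain ⟨y₀, hy₀, hmax⟩ := exists_longest hc hne
  set L := len K y₀ with hL
  have hLpos : 0 < L := by
    by_contra hcon
    push_neg at hcon
    apply hV0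
    rw [hvolK]
    apply lintegral_eq_zero_of_ae_eq_zero
    refine Eventually.of_forall fun y => ?_
    show volume (sec K y) = 0
    by_cases hy : y ∈ shadow K
    · rw [volume_sec hc hv hy]
      exact ENNReal.ofReal_of_nonpos ((hmax y hy).trans hcon)
    · rw [sec_empty hy]
      simp
  -- the threshold
  set G : Set ℝ := {t | 0 ≤ t ∧ ENNReal.ofReal b ≤ a t} with hG
  have hGbdd : BddAbove G := by
    refine ⟨L, ?_⟩
    rintro t ⟨_, h2⟩
    by_contra hcon
    push_neg at hcon
    have : lev K t = ∅ := by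
      ext y
      simp only [mem_empty_iff_false, iff_false]
      rintro ⟨h3, h4⟩
      have := hmax y h3
      linarith
    simp only [ha, this, measure_empty, nonpos_iff_eq_zero, ENNReal.ofReal_eq_zero] at h2
    linarith
  -- a homothety shows that the threshold is positive
  have ht₀ : L * (1 - s) ∈ G := by
    refine ⟨mul_nonneg hLpos.le (by linarith), ?_⟩
    have hsub : (fun x : Pl => s • x + (1 - s) • y₀) '' shadow K ⊆ lev K (L * (1 - s)) := by
      rintro _ ⟨y, hy, rfl⟩
      have h1 : y ∈ lev K 0 := by rwa [lev_zero hc]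
      have h2 : y₀ ∈ lev K L := ⟨hy₀, le_rfl⟩
      have := lev_comb hc hc hc (fun u hu v hv' => hv hu hv' hs0.le (by linarith) (by ring))
        hs0.le (by linarith : (0 : ℝ) ≤ 1 - s) h1 h2
      have e : s * 0 + (1 - s) * L = L * (1 - s) := by ring
      rwa [e] at this
    have hvol : volume ((fun x : Pl => s • x + (1 - s) • y₀) '' shadow K)
        = ENNReal.ofReal (s ^ 2) * volume (shadow K) := by
      have e : (fun x : Pl => s • x + (1 - s) • y₀) '' shadow K
          = (fun z => z + (1 - s) • y₀) '' (s • shadow K) := by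
        rw [← image_smul, image_image]
      rw [e, image_add_right, measure_preimage_add_right, Measure.addHaar_smul]
      congr 2
      simp [abs_of_pos hs0, Module.finrank_prod]
    calc ENNReal.ofReal b = volume ((fun x : Pl => s • x + (1 - s) • y₀) '' shadow K) := by
          rw [hvol, hAeq, ← ENNReal.ofReal_mul (by positivity)]
      _ ≤ a (L * (1 - s)) := measure_mono hsub
  set τ := sSup G with hτ
  have hτpos : 0 < τ := by
    have := le_csSup hGbdd ht₀
    have h2 : 0 < L * (1 - s) := mul_pos hLpos (by linarith)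
    linarith
  have hbelow : ∀ t, 0 ≤ t → t < τ → ENNReal.ofReal b ≤ a t := by
    intro t ht0 ht
    obtain ⟨r, hr, htr⟩ := exists_lt_of_lt_csSup ⟨_, ht₀⟩ ht
    exact hr.2.trans (ha_anti htr.le)
  have habove : ∀ t, τ < t → a t < ENNReal.ofReal b := by
    intro t ht
    by_contra hcon
    push_neg at hcon
    have := le_csSup hGbdd (⟨hτpos.le.trans ht.le, hcon⟩ : t ∈ G)
    linarith
  set T := τ / (1 - s) with hT
  have h1s : 0 < 1 - s := by linarith
  have hTpos : 0 < T := div_pos hτpos h1s
  have hτT : τ = T * (1 - s) := by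
    rw [hT]
    field_simp
  set sA := √A with hsA
  have hsApos : 0 < sA := Real.sqrt_pos.2 hApos
  have hsA2 : sA ^ 2 = A := Real.sq_sqrt hApos.le
  have hsb : √b = s * sA := by
    rw [hbdef, Real.sqrt_mul (by positivity), Real.sqrt_sq hs0.le]
  have hga0 : √(a 0).toReal = sA := by
    rw [ha0, ENNReal.toReal_ofReal hApos.le]
  have ha0ne : a 0 ≠ 0 := by
    rw [ha0]
    simpa using hApos
  -- comparison below the threshold
  have hlow : ∀ t ∈ Ioo (0 : ℝ) τ, ENNReal.ofReal (A * (1 - t / T) ^ 2) ≤ a t := by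
    rintro t ⟨ht0, htτ⟩
    have hfin : a t ≠ ⊤ := (isCompact_lev hc hv ht0.le).measure_lt_top.ne
    have key : ∀ r ∈ Ioo t τ, sA * (1 - t * (1 - s) / r) ≤ √(a t).toReal := by
      rintro r ⟨htr, hrτ⟩
      have hr0 : 0 < r := ht0.trans htr
      have h1 := hbelow r hr0.le hrτ
      have hrne : a r ≠ 0 := by
        intro h
        rw [h] at h1
        simp only [nonpos_iff_eq_zero, ENNReal.ofReal_eq_zero] at h1
        linarith
      have hrfin : a r ≠ ⊤ := (isCompact_lev hc hv hr0.le).measure_lt_top.ne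
      have h2 : s * sA ≤ √(a r).toReal := by
        rw [← hsb]
        apply Real.sqrt_le_sqrt
        have := ENNReal.toReal_mono hrfin h1
        rwa [ENNReal.toReal_ofReal hbpos.le] at this
      have hp : 0 ≤ 1 - t / r := by
        rw [sub_nonneg, div_le_one hr0]
        exact htr.le
      have hq : 0 ≤ t / r := by positivity
      have h3 := sqrt_area_concave hc hv (le_refl (0 : ℝ)) hr0.le ha0ne hrne hp hq (by ring)
      have e : (1 - t / r) * 0 + t / r * r = t := by
        field_simp
        ring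
      rw [e, hga0] at h3
      have h5 := mul_le_mul_of_nonneg_left h2 hq
      calc sA * (1 - t * (1 - s) / r) = (1 - t / r) * sA + t / r * (s * sA) := by
            field_simp
            ring
        _ ≤ (1 - t / r) * sA + t / r * √(a r).toReal := by linarith
        _ ≤ √(a t).toReal := h3
    have hcontAt : ContinuousAt (fun r => sA * (1 - t * (1 - s) / r)) τ :=
      ContinuousAt.mul continuousAt_const (ContinuousAt.sub continuousAt_const
        (ContinuousAt.div continuousAt_const continuousAt_id hτpos.ne'))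
    have hlim := hcontAt.tendsto.mono_left (nhdsWithin_le_nhds (s := Iio τ))
    have hev : ∀ᶠ r in 𝓝[<] τ, sA * (1 - t * (1 - s) / r) ≤ √(a t).toReal := by
      filter_upwards [Ioo_mem_nhdsLT htτ] with r hr using key r hr
    have hfin2 := le_of_tendsto hlim hev
    have e1 : t * (1 - s) / τ = t / T := by
      rw [hT]
      field_simp
    rw [e1] at hfin2
    have hm0 : 0 ≤ sA * (1 - t / T) := by
      apply mul_nonneg hsApos.le
      rw [sub_nonneg, div_le_one hTpos]
      have : τ ≤ T := by
        rw [hτT]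
        nlinarith
      linarith
    have hsq : A * (1 - t / T) ^ 2 ≤ (a t).toReal := by
      have h6 := pow_le_pow_left₀ hm0 hfin2 2
      rw [Real.sq_sqrt ENNReal.toReal_nonneg, mul_pow, hsA2] at h6
      exact h6
    calc ENNReal.ofReal (A * (1 - t / T) ^ 2) ≤ ENNReal.ofReal (a t).toReal :=
          ENNReal.ofReal_le_ofReal hsq
      _ = a t := ENNReal.ofReal_toReal hfin
  -- comparison above the threshold
  have hhigh : ∀ t ∈ Ioi τ, a t ≤ (Ioo τ T).indicator
      (fun t => ENNReal.ofReal (A * (1 - t / T) ^ 2)) t := by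
    intro t ht
    have htτ : τ < t := ht
    have ht0 : 0 < t := hτpos.trans htτ
    by_cases hat : a t = 0
    · rw [hat]
      exact bot_le
    have hfin : a t ≠ ⊤ := (isCompact_lev hc hv ht0.le).measure_lt_top.ne
    have key : ∀ r ∈ Ioo τ t, sA * (1 - r / t) + r / t * √(a t).toReal ≤ s * sA := by
      rintro r ⟨hτr, hrt⟩
      have hr0 : 0 < r := hτpos.trans hτr
      have h1 := habove r hτr
      have hrfin : a r ≠ ⊤ := (isCompact_lev hc hv hr0.le).measure_lt_top.ne
      have h2 : √(a r).toReal ≤ s * sA := by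
        rw [← hsb]
        apply Real.sqrt_le_sqrt
        have := ENNReal.toReal_mono ENNReal.ofReal_ne_top h1.le
        rwa [ENNReal.toReal_ofReal hbpos.le] at this
      have hp : 0 ≤ 1 - r / t := by
        rw [sub_nonneg, div_le_one ht0]
        exact hrt.le
      have hq : 0 ≤ r / t := by positivity
      have h3 := sqrt_area_concave hc hv (le_refl (0 : ℝ)) ht0.le ha0ne hat hp hq (by ring)
      have e : (1 - r / t) * 0 + r / t * t = r := by
        field_simp
        ring
      rw [e, hga0] at h3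
      calc sA * (1 - r / t) + r / t * √(a t).toReal
          = (1 - r / t) * sA + r / t * √(a t).toReal := by ring
        _ ≤ √(a r).toReal := h3
        _ ≤ s * sA := h2
    have hcontAt : ContinuousAt (fun r => sA * (1 - r / t) + r / t * √(a t).toReal) τ :=
      ContinuousAt.add (ContinuousAt.mul continuousAt_const (ContinuousAt.sub continuousAt_const
        (ContinuousAt.div continuousAt_id continuousAt_const ht0.ne')))
        (ContinuousAt.mul (ContinuousAt.div continuousAt_id continuousAt_const ht0.ne')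
          continuousAt_const)
    have hlim := hcontAt.tendsto.mono_left (nhdsWithin_le_nhds (s := Ioi τ))
    have hev : ∀ᶠ r in 𝓝[>] τ, sA * (1 - r / t) + r / t * √(a t).toReal ≤ s * sA := by
      filter_upwards [Ioo_mem_nhdsGT htτ] with r hr using key r hr
    have hfin2 := le_of_tendsto hlim hev
    have hg : √(a t).toReal ≤ sA * (1 - t / T) := by
      have e1 : sA * (1 - t / T) - √(a t).toReal
          = (t / τ) * (s * sA - (sA * (1 - τ / t) + τ / t * √(a t).toReal)) := by
        rw [hT]
        field_simp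
        ring
      have h6 : 0 ≤ (t / τ) * (s * sA - (sA * (1 - τ / t) + τ / t * √(a t).toReal)) :=
        mul_nonneg (by positivity) (by linarith)
      linarith
    have hgpos : 0 < √(a t).toReal := by
      apply Real.sqrt_pos.2
      exact ENNReal.toReal_pos hat hfin
    have htT : t < T := by
      by_contra hcon
      push_neg at hcon
      have h7 : 1 - t / T ≤ 0 := by
        rw [sub_nonpos, one_le_div hTpos]
        exact hcon
      have h8 : sA * (1 - t / T) ≤ 0 := mul_nonpos_of_nonneg_of_nonpos hsApos.le h7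
      linarith
    have hmem : t ∈ Ioo τ T := ⟨htτ, htT⟩
    rw [indicator_of_mem hmem]
    have hsq : (a t).toReal ≤ A * (1 - t / T) ^ 2 := by
      have h6 := pow_le_pow_left₀ (Real.sqrt_nonneg _) hg 2
      rw [Real.sq_sqrt ENNReal.toReal_nonneg, mul_pow, hsA2] at h6
      exact h6
    calc a t = ENNReal.ofReal (a t).toReal := (ENNReal.ofReal_toReal hfin).symm
      _ ≤ _ := ENNReal.ofReal_le_ofReal hsq
  -- the layer cake formula
  have hsplit : ∀ f : ℝ → ENNReal, ∫⁻ t in Ioi (0 : ℝ), f t
      = (∫⁻ t in Ioc (0 : ℝ) τ, f t) + ∫⁻ t in Ioi τ, f t := by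
    intro f
    rw [← Ioc_union_Ioi_eq_Ioi hτpos.le]
    exact lintegral_union measurableSet_Ioi (Ioc_disjoint_Ioi (le_refl τ))
  set I₁ := ∫⁻ t in Ioc (0 : ℝ) τ, a t with hI₁
  set I₂ := ∫⁻ t in Ioi τ, a t with hI₂
  have hV : volume K = I₁ + I₂ := by
    rw [hvolK, lintegral_sec_eq' hc hv volume, hsplit]
  have hVt : volume K ≠ ⊤ := hc.measure_lt_top.ne
  have hI₁t : I₁ ≠ ⊤ := by
    intro h
    rw [h, top_add] at hV
    exact hVt hV
  have hI₂t : I₂ ≠ ⊤ := by
    intro h
    rw [h, add_top] at hV
    exact hVt hV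
  have hX : volume (K ∩ Prod.fst ⁻¹' B) ≤ ENNReal.ofReal b * ENNReal.ofReal τ + I₂ := by
    have hS : MeasurableSet (K ∩ Prod.fst ⁻¹' B) := hKm.inter (measurable_fst hB)
    have e1 : volume (K ∩ Prod.fst ⁻¹' B) = ∫⁻ y in B, volume (sec K y) := by
      rw [Measure.volume_eq_prod, Measure.prod_apply hS, ← lintegral_indicator hB]
      apply lintegral_congr
      intro y
      by_cases hy : y ∈ B
      · rw [indicator_of_mem hy]
        congr 1
        ext z
        simp [sec, hy]
      · rw [indicator_of_notMem hy]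
        have : Prod.mk y ⁻¹' (K ∩ Prod.fst ⁻¹' B) = ∅ := by
          ext z
          simp [hy]
        rw [this]
        simp
    rw [e1, lintegral_sec_eq' hc hv (volume.restrict B), hsplit]
    refine add_le_add ?_ ?_
    · calc ∫⁻ t in Ioc (0 : ℝ) τ, (volume.restrict B) (lev K t)
          ≤ ∫⁻ _t in Ioc (0 : ℝ) τ, ENNReal.ofReal b := by
            apply lintegral_mono
            intro t
            calc (volume.restrict B) (lev K t) ≤ (volume.restrict B) univ :=
                  measure_mono (subset_univ _)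
              _ = ENNReal.ofReal b := by
                  rw [Measure.restrict_apply_univ, hbeq]
        _ = ENNReal.ofReal b * ENNReal.ofReal τ := by
            rw [setLIntegral_const, Real.volume_Ioc, sub_zero]
    · apply lintegral_mono
      intro t
      exact Measure.restrict_le_self _
  have hP₁ : ENNReal.ofReal (A * T / 3 * (1 - s ^ 3)) ≤ I₁ := by
    have e1 := integral_cone (c := A) (T := T) (u := 0) (v := τ) hApos.le hTpos hτpos.le
    have e2 : 1 - τ / T = s := by
      rw [hτT]
      field_simp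
      ring
    have e3 : (1 - (0 : ℝ) / T) = 1 := by simp
    rw [e2, e3, one_pow] at e1
    rw [← e1]
    calc ∫⁻ t in Ioo (0 : ℝ) τ, ENNReal.ofReal (A * (1 - t / T) ^ 2)
        ≤ ∫⁻ t in Ioo (0 : ℝ) τ, a t := setLIntegral_mono' measurableSet_Ioo hlow
      _ ≤ I₁ := lintegral_mono_set Ioo_subset_Ioc_self
  have hP₂ : I₂ ≤ ENNReal.ofReal (A * T / 3 * s ^ 3) := by
    have hτltT : τ ≤ T := by
      rw [hτT]
      nlinarith
    have e1 := integral_cone (c := A) (T := T) (u := τ) (v := T) hApos.le hTpos hτltT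
    have e2 : 1 - τ / T = s := by
      rw [hτT]
      field_simp
      ring
    have e3 : (1 - T / T) = 0 := by
      field_simp
      ring
    rw [e2, e3] at e1
    simp only [ne_eq, OfNat.ofNat_ne_zero, not_false_eq_true, zero_pow, sub_zero] at e1
    rw [← e1]
    calc I₂ ≤ ∫⁻ t in Ioi τ, (Ioo τ T).indicator
          (fun t => ENNReal.ofReal (A * (1 - t / T) ^ 2)) t :=
          setLIntegral_mono' measurableSet_Ioi hhigh
      _ = ∫⁻ t in Ioo τ T, ENNReal.ofReal (A * (1 - t / T) ^ 2) := by
          rw [setLIntegral_indicator measurableSet_Ioo]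
          congr 2
          ext x
          simp only [mem_inter_iff, mem_Ioi, mem_Ioo]
          constructor
          · exact fun h => h.1
          · exact fun h => ⟨h, h.1⟩
  -- pass to real numbers
  set i₁ := I₁.toReal with hi₁
  set i₂ := I₂.toReal with hi₂
  have hi₁eq : I₁ = ENNReal.ofReal i₁ := (ENNReal.ofReal_toReal hI₁t).symm
  have hi₂eq : I₂ = ENNReal.ofReal i₂ := (ENNReal.ofReal_toReal hI₂t).symm
  have hi₁0 : 0 ≤ i₁ := ENNReal.toReal_nonneg
  have hi₂0 : 0 ≤ i₂ := ENNReal.toReal_nonneg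
  have hP₁r : A * T / 3 * (1 - s ^ 3) ≤ i₁ := by
    have h3 : 0 ≤ A * T / 3 * (1 - s ^ 3) := by
      have : s ^ 3 ≤ 1 := pow_le_one₀ hs0.le hs1.le
      exact mul_nonneg (by positivity) (by linarith)
    have := ENNReal.toReal_mono hI₁t hP₁
    rwa [ENNReal.toReal_ofReal h3] at this
  have hP₂r : i₂ ≤ A * T / 3 * s ^ 3 := by
    have h3 : 0 ≤ A * T / 3 * s ^ 3 := by positivity
    have := ENNReal.toReal_mono ENNReal.ofReal_ne_top hP₂
    rwa [ENNReal.toReal_ofReal h3] at this
  have hmain := phi_real hApos.le hTpos hs0.le hs1.le hbdef hτT hP₁r hP₂r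
  calc volume (K ∩ Prod.fst ⁻¹' B) ≤ ENNReal.ofReal b * ENNReal.ofReal τ + I₂ := hX
    _ = ENNReal.ofReal (b * τ + i₂) := by
        rw [hi₂eq, ← ENNReal.ofReal_mul hbpos.le,
          ← ENNReal.ofReal_add (mul_nonneg hbpos.le hτpos.le) hi₂0]
    _ ≤ ENNReal.ofReal ((3 * s ^ 2 - 2 * s ^ 3) * (i₁ + i₂)) := ENNReal.ofReal_le_ofReal hmain
    _ = ENNReal.ofReal (3 * s ^ 2 - 2 * s ^ 3) * volume K := by
        rw [hV, hi₁eq, hi₂eq, ENNReal.ofReal_mul' (by positivity),
          ENNReal.ofReal_add hi₁0 hi₂0]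

end Vale.Agent.Lib.P243
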