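import Vale.Agent.Lib.P243.Main
import Vale.Agent.Lib.P243.Phi

/-! The bound for a finite number of cylinders. -/

namespace Vale.Agent.Lib.P243

open MeasureTheory Set

/-- The function `3 x - 2 x √x`. -/
noncomputable def phi (x : ℝ) : ℝ := 3 * x - 2 * x * √x

lemma phi_sq {s : ℝ} (hs : 0 ≤ s) : phi (s ^ 2) = 3 * s ^ 2 - 2 * s ^ 3 := by
  rw [phi, Real.sqrt_sq hs]
  ring

lemma psi_mono {r s : ℝ} (hr : 0 ≤ r) (hrs : r ≤ s) (hs : s ≤ 1) :
    3 * r ^ 2 - 2 * r ^ 3 ≤ 3 * s ^ 2 - 2 * s ^ 3 := by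
  have e : (3 * s ^ 2 - 2 * s ^ 3) - (3 * r ^ 2 - 2 * r ^ 3)
      = (s - r) * (3 * s + 3 * r - 2 * s ^ 2 - 2 * s * r - 2 * r ^ 2) := by ring
  have hs0 : 0 ≤ s := hr.trans hrs
  have h1 : s ^ 2 ≤ s := by nlinarith
  have h2 : r ^ 2 ≤ r * s := by nlinarith
  have h3 : s * r ≤ r := by nlinarith
  have h4 : 0 ≤ 3 * s + 3 * r - 2 * s ^ 2 - 2 * s * r - 2 * r ^ 2 := by nlinarith
  have h5 := mul_nonneg (sub_nonneg.2 hrs) h4
  linarith

lemma psi_strict {r s : ℝ} (hr : 0 ≤ r) (hrs : r < s) (hs : s ≤ 1) :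
    3 * r ^ 2 - 2 * r ^ 3 < 3 * s ^ 2 - 2 * s ^ 3 := by
  have e : (3 * s ^ 2 - 2 * s ^ 3) - (3 * r ^ 2 - 2 * r ^ 3)
      = (s - r) * (3 * s + 3 * r - 2 * s ^ 2 - 2 * s * r - 2 * r ^ 2) := by ring
  have hs0 : 0 ≤ s := hr.trans hrs.le
  have h1 : s ^ 2 ≤ s := by nlinarith
  have h2 : r ^ 2 ≤ r * s := by nlinarith
  have h3 : s * r ≤ r := by nlinarith
  have h4 : 0 < 3 * s + 3 * r - 2 * s ^ 2 - 2 * s * r - 2 * r ^ 2 := by nlinarith
  have h5 := mul_pos (sub_pos.2 hrs) h4
  linarith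

/-- The tangent line bound for `phi`. -/
lemma phi_tangent {x y : ℝ} (hx : 0 ≤ x) (hy : 0 ≤ y) :
    phi x ≤ phi y + (3 - 3 * √y) * (x - y) := by
  set s := √x with hs
  set r := √y with hr
  have hs0 : 0 ≤ s := Real.sqrt_nonneg _
  have hr0 : 0 ≤ r := Real.sqrt_nonneg _
  have hx2 : x = s ^ 2 := (Real.sq_sqrt hx).symm
  have hy2 : y = r ^ 2 := (Real.sq_sqrt hy).symm
  have e1 : phi x = 3 * s ^ 2 - 2 * s ^ 3 := by
    rw [hx2, phi_sq hs0]
  have e2 : phi y = 3 * r ^ 2 - 2 * r ^ 3 := by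
    rw [hy2, phi_sq hr0]
  rw [e1, e2, hx2, hy2]
  have h3 : 0 ≤ (s - r) ^ 2 * (2 * s + r) := by positivity
  nlinarith

/-- The bound for one cylinder in Euclidean space, with the sharp function of the base. -/
theorem one_cylinder_phi {K : Set E3} (hc : IsCompact K) (hv : Convex ℝ K)
    (hV0 : volume K ≠ 0) (u : Fin 3 → E3) (hu : Orthonormal ℝ u) (B : Set Pl) {x : ℝ}
    (hx0 : 0 ≤ x) (hx1 : x ≤ 1)
    (hb : volume B ≤ ENNReal.ofReal x * volume ((fun w => (inner ℝ (u 0) w, inner ℝ (u 1) w)) '' K)) :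
    volume (K ∩ (fun w => (inner ℝ (u 0) w, inner ℝ (u 1) w)) ⁻¹' B)
      ≤ ENNReal.ofReal (phi x) * volume K := by
  set Θ := frameEquiv u hu with hΘ
  have hmp : MeasurePreserving Θ volume volume := measurePreserving_frameEquiv u hu
  have hcont : Continuous Θ := continuous_linearEquiv _
  set K' : Set (Pl × ℝ) := Θ '' K with hK'
  have hKc' : IsCompact K' := hc.image hcont
  have hKv' : Convex ℝ K' := hv.linear_image Θ.toLinearMap
  have hvol : volume K' = volume K := by
    have : Θ ⁻¹' K' = K := by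
      rw [hK']
      exact preimage_image_eq _ Θ.injective
    rw [← this]
    exact (hmp.measure_preimage hKc'.measurableSet.nullMeasurableSet).symm
  have hV0' : volume K' ≠ 0 := by rwa [hvol]
  have hA0 : volume (shadow K') ≠ 0 := by
    intro h0
    apply hV0'
    have hsub : K' ⊆ shadow K' ×ˢ (univ : Set ℝ) := fun w hw => ⟨⟨w, hw, rfl⟩, mem_univ _⟩
    refine measure_mono_null hsub ?_
    rw [Measure.volume_eq_prod, Measure.prod_prod, h0, zero_mul]
  have hshadow : shadow K' = (fun w => (inner ℝ (u 0) w, inner ℝ (u 1) w)) '' K := by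
    rw [shadow, hK', image_image]
    apply image_congr
    intro w _
    rw [hΘ, frameEquiv_apply]
  rw [← hshadow] at hb
  have hAt : volume (shadow K') ≠ ⊤ := (isCompact_shadow hKc').measure_lt_top.ne
  set B' := toMeasurable volume B with hB'
  have hB'm : MeasurableSet B' := measurableSet_toMeasurable _ _
  have hB'vol : volume B' = volume B := measure_toMeasurable _
  -- it suffices to bound the part over the measurable hull of the base
  have hpull : volume (K ∩ (fun w => (inner ℝ (u 0) w, inner ℝ (u 1) w)) ⁻¹' B)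
      ≤ volume (K' ∩ Prod.fst ⁻¹' B') := by
    refine le_trans (measure_mono ?_) (measure_preimage_le_of_mp hmp _)
    rintro w ⟨hw, hwB⟩
    refine ⟨⟨w, hw, rfl⟩, ?_⟩
    simp only [mem_preimage, hΘ, frameEquiv_apply]
    exact subset_toMeasurable _ _ hwB
  refine hpull.trans ?_
  -- relative area of the measurable hull
  set y := (volume B' / volume (shadow K')).toReal with hy
  have hbt : volume B' ≠ ⊤ := by
    rw [hB'vol]
    refine ne_of_lt (lt_of_le_of_lt hb ?_)
    exact ENNReal.mul_lt_top ENNReal.ofReal_lt_top (lt_top_iff_ne_top.2 hAt)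
  have hdivt : volume B' / volume (shadow K') ≠ ⊤ := ENNReal.div_ne_top hbt hA0
  have hy0 : 0 ≤ y := ENNReal.toReal_nonneg
  have hyeq : volume B' = ENNReal.ofReal y * volume (shadow K') := by
    rw [hy, ENNReal.ofReal_toReal hdivt, ENNReal.div_mul_cancel hA0 hAt]
  have hyx : y ≤ x := by
    have h1 : ENNReal.ofReal y * volume (shadow K') ≤ ENNReal.ofReal x * volume (shadow K') := by
      rw [← hyeq, hB'vol]
      exact hb
    have h2 := (ENNReal.mul_le_mul_iff_left hA0 hAt).1 h1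
    exact (ENNReal.ofReal_le_ofReal_iff hx0).1 h2
  have hphimono : phi y ≤ phi x := by
    have e1 : phi x = 3 * (√x) ^ 2 - 2 * (√x) ^ 3 := by
      rw [← phi_sq (Real.sqrt_nonneg x), Real.sq_sqrt hx0]
    have e2 : phi y = 3 * (√y) ^ 2 - 2 * (√y) ^ 3 := by
      rw [← phi_sq (Real.sqrt_nonneg y), Real.sq_sqrt hy0]
    rw [e1, e2]
    apply psi_mono (Real.sqrt_nonneg y) (Real.sqrt_le_sqrt hyx)
    exact Real.sqrt_le_one.2 hx1
  rcases eq_or_lt_of_le hy0 with hy00 | hypos
  · -- null base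
    have hnull : volume B' = 0 := by
      rw [hyeq, ← hy00]
      simp
    have : volume (K' ∩ Prod.fst ⁻¹' B') = 0 := by
      refine measure_mono_null inter_subset_right ?_
      have e : (Prod.fst ⁻¹' B' : Set (Pl × ℝ)) = B' ×ˢ univ := by
        ext w
        simp
      rw [e, Measure.volume_eq_prod, Measure.prod_prod, hnull, zero_mul]
    rw [this]
    exact zero_le
  rcases lt_or_ge y 1 with hy1 | hy1
  · -- the main case
    set s := √y with hs
    have hs0 : 0 < s := Real.sqrt_pos.2 hypos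
    have hs1 : s < 1 := (Real.sqrt_lt' one_pos).2 (by simpa using hy1)
    have hs2 : s ^ 2 = y := Real.sq_sqrt hy0
    have hmain := cylinder_phi hKc' hKv' hV0' hA0 hB'm hs0 hs1 (by rw [hs2]; exact hyeq)
    rw [hvol] at hmain
    refine hmain.trans ?_
    gcongr
    rw [← phi_sq hs0.le, hs2]
    exact hphimono
  · -- the relative area is one
    have hx1' : x = 1 := le_antisymm hx1 (hy1.trans hyx)
    have e : phi x = 1 := by
      rw [hx1', phi]
      norm_num
    rw [e]
    simp only [ENNReal.ofReal_one, one_mul]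
    rw [← hvol]
    exact measure_mono inter_subset_left

/-- The inequality in terms of the real relative areas, for a finite covering. -/
theorem covering_phi {ι : Type*} [Fintype ι] {K : Set E3} (hc : IsCompact K) (hv : Convex ℝ K)
    (hint : (interior K).Nonempty) (e : ι → Fin 3 → E3) (he : ∀ i, Orthonormal ℝ (e i))
    (B : ι → Set Pl)
    (hcov : ∀ x ∈ K, ∃ i, (inner ℝ (e i 0) x, inner ℝ (e i 1) x) ∈ B i)
    (x : ι → ℝ) (hx0 : ∀ i, 0 ≤ x i) (hx1 : ∀ i, x i ≤ 1)
    (hb : ∀ i, volume (B i) ≤ ENNReal.ofReal (x i) *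
      volume ((fun w => (inner ℝ (e i 0) w, inner ℝ (e i 1) w)) '' K)) :
    1 ≤ ∑ i, phi (x i) := by
  have hV0 : volume K ≠ 0 := by
    have := isOpen_interior.measure_pos volume hint
    exact (this.trans_le (measure_mono interior_subset)).ne'
  have hVt : volume K ≠ ⊤ := hc.measure_lt_top.ne
  have hphi0 : ∀ i, 0 ≤ phi (x i) := by
    intro i
    have e1 : phi (x i) = 3 * (√(x i)) ^ 2 - 2 * (√(x i)) ^ 3 := by
      rw [← phi_sq (Real.sqrt_nonneg _), Real.sq_sqrt (hx0 i)]
    have hr0 := Real.sqrt_nonneg (x i)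
    have hr1 : √(x i) ≤ 1 := Real.sqrt_le_one.2 (hx1 i)
    have := psi_mono (le_refl (0 : ℝ)) hr0 hr1
    rw [e1]
    simpa using this
  have hsub : K ⊆ ⋃ i, K ∩ (fun w => (inner ℝ (e i 0) w, inner ℝ (e i 1) w)) ⁻¹' B i := by
    intro w hw
    obtain ⟨i, hi⟩ := hcov w hw
    exact mem_iUnion.2 ⟨i, hw, hi⟩
  have h1 : volume K ≤ ENNReal.ofReal (∑ i, phi (x i)) * volume K := by
    calc volume K ≤ volume (⋃ i, K ∩ (fun w => (inner ℝ (e i 0) w, inner ℝ (e i 1) w)) ⁻¹' B i) :=
          measure_mono hsub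
      _ ≤ ∑ i, volume (K ∩ (fun w => (inner ℝ (e i 0) w, inner ℝ (e i 1) w)) ⁻¹' B i) :=
          measure_iUnion_fintype_le _ _
      _ ≤ ∑ i, ENNReal.ofReal (phi (x i)) * volume K :=
          Finset.sum_le_sum fun i _ => one_cylinder_phi hc hv hV0 (e i) (he i) (B i) (hx0 i) (hx1 i) (hb i)
      _ = ENNReal.ofReal (∑ i, phi (x i)) * volume K := by
          rw [← Finset.sum_mul, ENNReal.ofReal_sum_of_nonneg fun i _ => hphi0 i]
  have h2 : ENNReal.ofReal 1 * volume K ≤ ENNReal.ofReal (∑ i, phi (x i)) * volume K := by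
    simpa using h1
  have h3 := (ENNReal.mul_le_mul_iff_left hV0 hVt).1 h2
  exact (ENNReal.ofReal_le_ofReal_iff (Finset.sum_nonneg fun i _ => hphi0 i)).1 h3

/-- The lower bound for the total relative area in terms of the number of cylinders. -/
theorem finite_bound {ι : Type*} [Fintype ι] {K : Set E3} (hc : IsCompact K) (hv : Convex ℝ K)
    (hint : (interior K).Nonempty) (e : ι → Fin 3 → E3) (he : ∀ i, Orthonormal ℝ (e i))
    (B : ι → Set Pl)
    (hcov : ∀ x ∈ K, ∃ i, (inner ℝ (e i 0) x, inner ℝ (e i 1) x) ∈ B i)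
    {t : ℝ} (ht0 : 0 ≤ t) (ht1 : t ≤ 1)
    (ht : 3 * t - 2 * t * √(t / Fintype.card ι) ≤ 1) :
    ENNReal.ofReal t ≤
      ∑ i, volume (B i) / volume ((fun w => (inner ℝ (e i 0) w, inner ℝ (e i 1) w)) '' K) := by
  set A : ι → ENNReal := fun i => volume ((fun w => (inner ℝ (e i 0) w, inner ℝ (e i 1) w)) '' K)
    with hA
  have hAt : ∀ i, A i ≠ ⊤ := by
    intro i
    have hcomp : IsCompact ((fun w => (inner ℝ (e i 0) w, inner ℝ (e i 1) w)) '' K) :=
      hc.image (by fun_prop)
    exact hcomp.measure_lt_top.ne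
  have hV0 : volume K ≠ 0 := by
    have := isOpen_interior.measure_pos volume hint
    exact (this.trans_le (measure_mono interior_subset)).ne'
  have hA0 : ∀ i, A i ≠ 0 := by
    intro i h0
    have hmp := measurePreserving_frameEquiv (e i) (he i)
    have h2 : (fun w => (inner ℝ (e i 0) w, inner ℝ (e i 1) w)) '' K
        = shadow (frameEquiv (e i) (he i) '' K) := by
      rw [shadow, image_image]
      apply image_congr
      intro w _
      rw [frameEquiv_apply]
    simp only [hA] at h0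
    rw [h2] at h0
    have hsub : K ⊆ frameEquiv (e i) (he i) ⁻¹'
        (shadow (frameEquiv (e i) (he i) '' K) ×ˢ (univ : Set ℝ)) :=
      fun w hw => ⟨⟨_, ⟨w, hw, rfl⟩, rfl⟩, mem_univ _⟩
    apply hV0
    refine measure_mono_null hsub ?_
    rw [← nonpos_iff_eq_zero]
    refine (measure_preimage_le_of_mp hmp _).trans (le_of_eq ?_)
    rw [Measure.volume_eq_prod, Measure.prod_prod, h0, zero_mul]
  set R := ∑ i, volume (B i) / A i with hR
  by_contra hcon
  push_neg at hcon
  have hRlt1 : R < 1 := hcon.trans_le (by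
    rw [← ENNReal.ofReal_one]
    exact ENNReal.ofReal_le_ofReal ht1)
  have hRi : ∀ i, volume (B i) / A i ≤ R := by
    intro i
    exact Finset.single_le_sum (f := fun i => volume (B i) / A i) (fun _ _ => bot_le) (Finset.mem_univ i)
  have hRit : ∀ i, volume (B i) / A i ≠ ⊤ := fun i =>
    ((hRi i).trans_lt (hRlt1.trans ENNReal.one_lt_top)).ne
  set x : ι → ℝ := fun i => (volume (B i) / A i).toReal with hx
  have hx0 : ∀ i, 0 ≤ x i := fun i => ENNReal.toReal_nonneg
  have hxsum : ∑ i, x i = R.toReal := by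
    rw [hR, ENNReal.toReal_sum fun i _ => hRit i]
  have hx1 : ∀ i, x i ≤ 1 := by
    intro i
    have h1 := ENNReal.toReal_mono ENNReal.one_ne_top hRlt1.le
    have h2 := ENNReal.toReal_mono (hRlt1.ne_top) (hRi i)
    rw [ENNReal.toReal_one] at h1
    exact h2.trans h1
  have hb : ∀ i, volume (B i) ≤ ENNReal.ofReal (x i) * A i := by
    intro i
    rw [hx]
    simp only
    rw [ENNReal.ofReal_toReal (hRit i), ENNReal.div_mul_cancel (hA0 i) (hAt i)]
  have hmain := covering_phi hc hv hint e he B hcov x hx0 hx1 hb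
  set r := R.toReal with hr
  have hr0 : 0 ≤ r := ENNReal.toReal_nonneg
  have hrlt : r < t := by
    have hRe : R = ENNReal.ofReal r := (ENNReal.ofReal_toReal hRlt1.ne_top).symm
    rw [hRe] at hcon
    exact (ENNReal.ofReal_lt_ofReal_iff_of_nonneg hr0).1 hcon
  -- the number of cylinders is positive, since the body is nonempty
  obtain ⟨w₀, hw₀⟩ := hint.mono interior_subset
  obtain ⟨i₀, _⟩ := hcov w₀ hw₀
  have hm : 0 < Fintype.card ι := Fintype.card_pos_iff.2 ⟨i₀⟩
  set m : ℝ := (Fintype.card ι : ℝ) with hmdef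
  have hmpos : 0 < m := by
    rw [hmdef]
    exact_mod_cast hm
  have hm1 : 1 ≤ m := by
    rw [hmdef]
    exact_mod_cast hm
  set y := r / m with hy
  have hy0 : 0 ≤ y := div_nonneg hr0 hmpos.le
  have hsum : ∑ i, phi (x i) ≤ m * phi y := by
    calc ∑ i, phi (x i) ≤ ∑ i, (phi y + (3 - 3 * √y) * (x i - y)) :=
          Finset.sum_le_sum fun i _ => phi_tangent (hx0 i) hy0
      _ = m * phi y + (3 - 3 * √y) * (∑ i, x i - m * y) := by
          rw [Finset.sum_add_distrib, ← Finset.mul_sum, Finset.sum_sub_distrib]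
          simp [hmdef]
      _ = m * phi y := by
          have : ∑ i, x i - m * y = 0 := by
            rw [hxsum, hy]
            field_simp
            ring
          rw [this]
          ring
  -- compare the values at `r` and `t`
  have h1 : 1 ≤ m * phi y := hmain.trans hsum
  have hty : t / m ≤ 1 := by
    rw [div_le_one hmpos]
    linarith
  have hphi_strict : phi y < phi (t / m) := by
    have e1 : phi y = 3 * (√y) ^ 2 - 2 * (√y) ^ 3 := by
      rw [← phi_sq (Real.sqrt_nonneg _), Real.sq_sqrt hy0]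
    have e2 : phi (t / m) = 3 * (√(t / m)) ^ 2 - 2 * (√(t / m)) ^ 3 := by
      rw [← phi_sq (Real.sqrt_nonneg _), Real.sq_sqrt (div_nonneg ht0 hmpos.le)]
    rw [e1, e2]
    apply psi_strict (Real.sqrt_nonneg y)
    · apply Real.sqrt_lt_sqrt hy0
      exact div_lt_div_of_pos_right hrlt hmpos
    · exact Real.sqrt_le_one.2 hty
  have h2 : m * phi (t / m) = 3 * t - 2 * t * √(t / m) := by
    rw [phi]
    field_simp
  have h3 : m * phi y < m * phi (t / m) := mul_lt_mul_of_pos_left hphi_strict hmpos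
  rw [h2] at h3
  linarith

/-- At most two cylinders: the bound `1 / 2`, which is sharp. -/
theorem two_bound {ι : Type*} [Fintype ι] {K : Set E3} (hc : IsCompact K) (hv : Convex ℝ K)
    (hint : (interior K).Nonempty) (e : ι → Fin 3 → E3) (he : ∀ i, Orthonormal ℝ (e i))
    (B : ι → Set Pl)
    (hcov : ∀ x ∈ K, ∃ i, (inner ℝ (e i 0) x, inner ℝ (e i 1) x) ∈ B i)
    (hm : Fintype.card ι ≤ 2) :
    ENNReal.ofReal (1 / 2) ≤
      ∑ i, volume (B i) / volume ((fun w => (inner ℝ (e i 0) w, inner ℝ (e i 1) w)) '' K) := by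
  apply finite_bound hc hv hint e he B hcov (by norm_num) (by norm_num)
  obtain ⟨w₀, hw₀⟩ := hint.mono interior_subset
  obtain ⟨i₀, _⟩ := hcov w₀ hw₀
  have hm0 : 0 < Fintype.card ι := Fintype.card_pos_iff.2 ⟨i₀⟩
  have hm1 : (0 : ℝ) < Fintype.card ι := by exact_mod_cast hm0
  have hm2 : (Fintype.card ι : ℝ) ≤ 2 := by exact_mod_cast hm
  have h1 : (1 / 2 : ℝ) ≤ √((1 / 2) / Fintype.card ι) := by
    apply Real.le_sqrt_of_sq_le
    rw [le_div_iff₀ hm1]
    nlinarith
  linarith

end Vale.Agent.Lib.P243
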