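import Mathlib

/-! Planar area estimates: sum of a plane set with a vertical segment. -/

namespace Vale.Agent.Lib.P243

open MeasureTheory Set
open scoped Pointwise

lemma real_slice_add {S S' : Set ℝ} (hS : IsCompact S) (hne : S.Nonempty) {a : ℝ} (ha : 0 ≤ a)
    (hsub : ∀ z ∈ S, ∀ r ∈ Icc (0 : ℝ) a, z + r ∈ S') :
    volume S + ENNReal.ofReal a ≤ volume S' := by
  set M := sSup S with hM
  have hMmem : M ∈ S := hS.sSup_mem hne
  have hle : ∀ z ∈ S, z ≤ M := fun z hz => le_csSup hS.bddAbove hz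
  have hsub1 : S ∪ Ioc M (M + a) ⊆ S' := by
    rintro z (hz | hz)
    · have := hsub z hz 0 ⟨le_rfl, ha⟩
      simpa using this
    · have := hsub M hMmem (z - M) ⟨by linarith [hz.1], by linarith [hz.2]⟩
      simpa using this
  have hdisj : Disjoint S (Ioc M (M + a)) := by
    rw [Set.disjoint_left]
    intro z hz hz'
    exact absurd (hle z hz) (not_le.2 hz'.1)
  calc volume S + ENNReal.ofReal a = volume S + volume (Ioc M (M + a)) := by
        rw [Real.volume_Ioc]; congr 2; ring
    _ = volume (S ∪ Ioc M (M + a)) := (measure_union hdisj measurableSet_Ioc).symm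
    _ ≤ volume S' := measure_mono hsub1

/-- The sum of a compact plane set with a vertical segment. -/
lemma seg_sum {E E' : Set (ℝ × ℝ)} (hE : IsCompact E) (hE' : MeasurableSet E') {a : ℝ} (ha : 0 ≤ a)
    (hsub : ∀ q ∈ E, ∀ r ∈ Icc (0 : ℝ) a, (q.1, q.2 + r) ∈ E') :
    volume E + ENNReal.ofReal a * volume (Prod.fst '' E) ≤ volume E' := by
  have hm : MeasurableSet E := hE.measurableSet
  have hf : MeasurableSet (Prod.fst '' E) := (hE.image continuous_fst).measurableSet
  rw [Measure.volume_eq_prod, Measure.prod_apply hm, Measure.prod_apply hE']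
  have h1 : ENNReal.ofReal a * (volume : Measure ℝ) (Prod.fst '' E)
      = ∫⁻ x : ℝ, (Prod.fst '' E).indicator (fun _ => ENNReal.ofReal a) x := by
    rw [lintegral_indicator hf, lintegral_const, Measure.restrict_apply MeasurableSet.univ,
      univ_inter]
  rw [h1, ← lintegral_add_left (measurable_measure_prodMk_left hm)]
  apply lintegral_mono
  intro x
  by_cases hx : x ∈ Prod.fst '' E
  · simp only [indicator_of_mem hx]
    obtain ⟨q, hq, rfl⟩ := hx
    refine real_slice_add (S := Prod.mk q.1 ⁻¹' E) ?_ ⟨q.2, by simpa using hq⟩ ha ?_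
    · have hcl : IsClosed (Prod.mk q.1 ⁻¹' E) := hE.isClosed.preimage (by fun_prop)
      refine Metric.isCompact_of_isClosed_isBounded hcl ?_
      refine (hE.image continuous_snd).isBounded.subset ?_
      intro z hz
      exact ⟨(q.1, z), hz, rfl⟩
    · intro z hz r hr
      exact hsub (q.1, z) hz r hr
  · simp only [indicator_of_notMem hx, add_zero]
    have : Prod.mk x ⁻¹' E = ∅ := by
      ext z
      simp only [mem_preimage, mem_empty_iff_false, iff_false]
      intro h
      exact hx ⟨(x, z), h, rfl⟩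
    rw [this]
    simp

/-- A compact plane set with all vertical chords at most `ρ` has area at most `ρ` times the
length of its shadow on the first axis. -/
lemma area_le_of_chords {E : Set (ℝ × ℝ)} (hE : IsCompact E) {ρ : ℝ}
    (hch : ∀ x u₁ u₂, (x, u₁) ∈ E → (x, u₂) ∈ E → u₂ - u₁ ≤ ρ) :
    volume E ≤ ENNReal.ofReal ρ * volume (Prod.fst '' E) := by
  have hm : MeasurableSet E := hE.measurableSet
  have hf : MeasurableSet (Prod.fst '' E) := (hE.image continuous_fst).measurableSet
  rw [Measure.volume_eq_prod, Measure.prod_apply hm]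
  have h1 : ENNReal.ofReal ρ * (volume : Measure ℝ) (Prod.fst '' E)
      = ∫⁻ x : ℝ, (Prod.fst '' E).indicator (fun _ => ENNReal.ofReal ρ) x := by
    rw [lintegral_indicator hf, lintegral_const, Measure.restrict_apply MeasurableSet.univ,
      univ_inter]
  rw [h1]
  apply lintegral_mono
  intro x
  by_cases hx : x ∈ Prod.fst '' E
  · simp only [indicator_of_mem hx]
    obtain ⟨q, hq, rfl⟩ := hx
    have hcl : IsClosed (Prod.mk q.1 ⁻¹' E) := hE.isClosed.preimage (by fun_prop)
    have hcomp : IsCompact (Prod.mk q.1 ⁻¹' E) := by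
      refine Metric.isCompact_of_isClosed_isBounded hcl ?_
      refine (hE.image continuous_snd).isBounded.subset ?_
      intro z hz
      exact ⟨(q.1, z), hz, rfl⟩
    have hne : (Prod.mk q.1 ⁻¹' E).Nonempty := ⟨q.2, by simpa using hq⟩
    set u₀ := sInf (Prod.mk q.1 ⁻¹' E)
    have hu₀ : (q.1, u₀) ∈ E := hcomp.sInf_mem hne
    have hsub : Prod.mk q.1 ⁻¹' E ⊆ Icc u₀ (u₀ + ρ) := by
      intro z hz
      refine ⟨csInf_le hcomp.bddBelow hz, ?_⟩
      have := hch q.1 u₀ z hu₀ hz
      linarith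
    calc volume (Prod.mk q.1 ⁻¹' E) ≤ volume (Icc u₀ (u₀ + ρ)) := measure_mono hsub
      _ = ENNReal.ofReal ρ := by rw [Real.volume_Icc]; congr 1; ring
  · simp only [indicator_of_notMem hx]
    have : Prod.mk x ⁻¹' E = ∅ := by
      ext z
      simp only [mem_preimage, mem_empty_iff_false, iff_false]
      intro h
      exact hx ⟨(x, z), h, rfl⟩
    rw [this]
    simp

/-- Area of a scaled translate of a plane set. -/
lemma volume_scale_translate (D : Set (ℝ × ℝ)) {lam : ℝ} (_hlam : 0 ≤ lam) (p : ℝ × ℝ) :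
    volume ((fun d => lam • d + p) '' D) = ENNReal.ofReal (lam ^ 2) * volume D := by
  have h1 : (fun d => lam • d + p) '' D = (fun x => x + p) '' (lam • D) := by
    rw [← Set.image_smul, Set.image_image]
  rw [h1, Set.image_add_right, measure_preimage_add_right, Measure.addHaar_smul]
  congr 2
  have : Module.finrank ℝ (ℝ × ℝ) = 2 := by simp
  rw [this, abs_of_nonneg (by positivity)]

/-- Length of a scaled translate of a set of reals. -/
lemma volume_real_scale_translate (S : Set ℝ) {lam : ℝ} (hlam : 0 ≤ lam) (p : ℝ) :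
    volume ((fun d => lam * d + p) '' S) = ENNReal.ofReal lam * volume S := by
  have h1 : (fun d => lam * d + p) '' S = (fun x => x + p) '' (lam • S) := by
    rw [← Set.image_smul, Set.image_image]
    rfl
  rw [h1, Set.image_add_right, measure_preimage_add_right, Measure.addHaar_smul]
  simp [abs_of_nonneg hlam]

/-- The set `(1-s) D + s [y, y']`. -/
def midHull (D : Set (ℝ × ℝ)) (y y' : ℝ × ℝ) (s : ℝ) : Set (ℝ × ℝ) :=
  (fun p : (ℝ × ℝ) × ℝ => (1 - s) • p.1 + s • (y + p.2 • (y' - y))) '' (D ×ˢ Icc (0 : ℝ) 1)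

lemma isCompact_midHull {D : Set (ℝ × ℝ)} (hD : IsCompact D) (y y' : ℝ × ℝ) (s : ℝ) :
    IsCompact (midHull D y y' s) := by
  apply (hD.prod isCompact_Icc).image
  fun_prop

/-- The main planar area estimate.  `f` is a linear functional whose oscillation on `D` is
at most `c`, and `t = f (y' - y) ≥ 0`. -/
lemma planar_main {D : Set (ℝ × ℝ)} (hD : IsCompact D) {y y' : ℝ × ℝ}
    (f : (ℝ × ℝ) →ₗ[ℝ] ℝ) {c t : ℝ} (hc : 0 < c) (hf : ∀ d ∈ D, ∀ d' ∈ D, f (d - d') ≤ c)
    (ht : f (y' - y) = t) (ht0 : 0 ≤ t) {s : ℝ} (hs0 : 0 ≤ s) (hs1 : s ≤ 1) :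
    ENNReal.ofReal ((1 - s) ^ 2 + s * (1 - s) * (t / c)) * volume D
      ≤ volume (midHull D y y' s) := by
  have hs1' : 0 ≤ 1 - s := by linarith
  by_cases ht1 : t = 0
  · -- only the scaled copy is used
    subst ht1
    have h1 : (fun d => (1 - s) • d + s • y) '' D ⊆ midHull D y y' s := by
      rintro _ ⟨d, hd, rfl⟩
      refine ⟨(d, 0), ⟨hd, by simp⟩, ?_⟩
      simp
    calc ENNReal.ofReal ((1 - s) ^ 2 + s * (1 - s) * (0 / c)) * volume D
        = ENNReal.ofReal ((1 - s) ^ 2) * volume D := by simp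
      _ = volume ((fun d => (1 - s) • d + s • y) '' D) :=
          (volume_scale_translate D hs1' (s • y)).symm
      _ ≤ _ := measure_mono h1
  have htpos : 0 < t := lt_of_le_of_ne ht0 (Ne.symm ht1)
  set v := y' - y with hv
  have hv0 : v ≠ 0 := by
    intro h
    rw [h] at ht
    simp at ht
    exact ht1 ht.symm
  obtain ⟨Λ, hΛ⟩ := SeparatingDual.exists_continuousLinearEquiv_apply_eq (R := ℝ) hv0
    (y := ((0, 1) : ℝ × ℝ)) (by simp)
  -- the transformed sets
  set Dh : Set (ℝ × ℝ) := Λ '' D with hDh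
  have hDhc : IsCompact Dh := hD.image Λ.continuous
  set W := volume (Prod.fst '' Dh) with hW
  -- chord bound in the new coordinates
  have hchord : ∀ x u₁ u₂, (x, u₁) ∈ Dh → (x, u₂) ∈ Dh → u₂ - u₁ ≤ c / t := by
    rintro x u₁ u₂ ⟨d₁, hd₁, h₁⟩ ⟨d₂, hd₂, h₂⟩
    have h3 : Λ (d₂ - d₁) = (u₂ - u₁) • Λ v := by
      rw [hΛ, map_sub, h₁, h₂]
      ext <;> simp
    have h4 : d₂ - d₁ = (u₂ - u₁) • v := by
      apply Λ.injective
      rw [h3, map_smul]
    have h5 := hf d₂ hd₂ d₁ hd₁
    rw [h4, map_smul, ht, smul_eq_mul] at h5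
    rw [le_div_iff₀ htpos]
    exact h5
  have hA : volume Dh ≤ ENNReal.ofReal (c / t) * W :=
    area_le_of_chords hDhc hchord
  -- the scaled copy in the new coordinates
  set Eh : Set (ℝ × ℝ) := (fun d => (1 - s) • d + s • Λ y) '' Dh with hEh
  have hEhc : IsCompact Eh := hDhc.image (by fun_prop)
  set Hh : Set (ℝ × ℝ) := Λ '' midHull D y y' s with hHh
  have hHhc : IsCompact Hh := (isCompact_midHull hD y y' s).image Λ.continuous
  have hsub : ∀ q ∈ Eh, ∀ r ∈ Icc (0 : ℝ) s, (q.1, q.2 + r) ∈ Hh := by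
    rintro _ ⟨_, ⟨d, hd, rfl⟩, rfl⟩ r hr
    by_cases hs : s = 0
    · subst hs
      have hr0 : r = 0 := le_antisymm hr.2 hr.1
      subst hr0
      refine ⟨d, ⟨(d, 0), ⟨hd, by simp⟩, by simp⟩, ?_⟩
      simp
    · have hspos : 0 < s := lt_of_le_of_ne hs0 (Ne.symm hs)
      refine ⟨(1 - s) • d + s • (y + (r / s) • v), ⟨(d, r / s), ⟨hd, ?_, ?_⟩, rfl⟩, ?_⟩
      · exact div_nonneg hr.1 hs0
      · rw [div_le_one hspos]
        exact hr.2
      · simp only [map_add, map_smul, hΛ]
        have e : s * (r / s) = r := by field_simp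
        ext
        · simp
        · simp [e]
          ring
  have hseg := seg_sum hEhc hHhc.measurableSet hs0 hsub
  -- volumes of `Eh` and its shadow
  have hEv : volume Eh = ENNReal.ofReal ((1 - s) ^ 2) * volume Dh :=
    volume_scale_translate Dh hs1' (s • Λ y)
  have hEf : volume (Prod.fst '' Eh) = ENNReal.ofReal (1 - s) * W := by
    have e : Prod.fst '' Eh = (fun x => (1 - s) * x + s * (Λ y).1) '' (Prod.fst '' Dh) := by
      simp only [hEh, hDh, Set.image_image]
      apply Set.image_congr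
      intro a _
      simp
    rw [e, hW]
    exact volume_real_scale_translate _ hs1' _
  -- the determinant
  set κ := ENNReal.ofReal |LinearMap.det ((Λ : (ℝ × ℝ) ≃L[ℝ] (ℝ × ℝ)) : (ℝ × ℝ) →ₗ[ℝ] (ℝ × ℝ))|
    with hκ
  have hκ0 : κ ≠ 0 := by
    rw [hκ]
    simp only [ne_eq, ENNReal.ofReal_eq_zero, not_le, abs_pos]
    have := (LinearEquiv.isUnit_det' Λ.toLinearEquiv).ne_zero
    exact this
  have hκt : κ ≠ ⊤ := ENNReal.ofReal_ne_top
  have hDv : volume Dh = κ * volume D := Measure.addHaar_image_continuousLinearEquiv volume Λ D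
  have hHv : volume Hh = κ * volume (midHull D y y' s) :=
    Measure.addHaar_image_continuousLinearEquiv volume Λ _
  -- assemble
  have hWpos : ENNReal.ofReal (t / c) * volume Dh ≤ W := by
    calc ENNReal.ofReal (t / c) * volume Dh
        ≤ ENNReal.ofReal (t / c) * (ENNReal.ofReal (c / t) * W) := by gcongr
      _ = ENNReal.ofReal ((t / c) * (c / t)) * W := by
          rw [← mul_assoc, ENNReal.ofReal_mul (by positivity)]
      _ = W := by
          have : (t / c) * (c / t) = 1 := by field_simp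
          rw [this]; simp
  have hmain : ENNReal.ofReal ((1 - s) ^ 2 + s * (1 - s) * (t / c)) * volume Dh ≤ volume Hh := by
    calc ENNReal.ofReal ((1 - s) ^ 2 + s * (1 - s) * (t / c)) * volume Dh
        = ENNReal.ofReal ((1 - s) ^ 2) * volume Dh
          + ENNReal.ofReal (s * (1 - s)) * (ENNReal.ofReal (t / c) * volume Dh) := by
          rw [ENNReal.ofReal_add (by positivity) (by positivity),
            ENNReal.ofReal_mul (p := s * (1 - s)) (by positivity), add_mul]
          ring
      _ ≤ ENNReal.ofReal ((1 - s) ^ 2) * volume Dh + ENNReal.ofReal (s * (1 - s)) * W := by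
          gcongr
      _ = volume Eh + ENNReal.ofReal s * volume (Prod.fst '' Eh) := by
          rw [hEv, hEf, ENNReal.ofReal_mul hs0, mul_assoc]
      _ ≤ volume Hh := hseg
  rw [hDv, hHv] at hmain
  have h7 : κ * (ENNReal.ofReal ((1 - s) ^ 2 + s * (1 - s) * (t / c)) * volume D)
      ≤ κ * volume (midHull D y y' s) := by
    calc κ * (ENNReal.ofReal ((1 - s) ^ 2 + s * (1 - s) * (t / c)) * volume D)
        = ENNReal.ofReal ((1 - s) ^ 2 + s * (1 - s) * (t / c)) * (κ * volume D) := by ring
      _ ≤ _ := hmain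
  exact (ENNReal.mul_le_mul_iff_right hκ0 hκt).1 h7

end Vale.Agent.Lib.P243
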