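import Mathlib

/-! The ridge set of a set in a real vector space. -/

namespace Vale.Agent.Lib.P243

/-- Points of `K` that are within `δ` of the minimum of two bounded functionals
which differ substantially and agree on a long chord vector. -/
def ridge {V : Type*} [AddCommGroup V] [Module ℝ V] (δ : ℝ) (K : Set V) : Set V :=
  {x | x ∈ K ∧ ∃ a b : V →ₗ[ℝ] ℝ,
    (∀ w ∈ K, a (x - w) ≤ δ ∧ b (x - w) ≤ δ) ∧
    (∀ w ∈ K, ∀ w' ∈ K, a (w - w') ≤ 5 / 4 ∧ b (w - w') ≤ 5 / 4) ∧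
    (∃ w ∈ K, ∃ w' ∈ K, a (w - w') = b (w - w') ∧ 1 / 2 ≤ a (w - w')) ∧
    (∃ w ∈ K, ∃ w' ∈ K, 1 / 8 ≤ a (w - w') - b (w - w'))}

/-- The ridge set behaves well under invertible affine changes of variables. -/
lemma ridge_image {V V' : Type*} [AddCommGroup V] [Module ℝ V] [AddCommGroup V'] [Module ℝ V']
    (δ : ℝ) (K : Set V) (Θ : V ≃ₗ[ℝ] V') (p : V') :
    ridge δ ((fun x => Θ x + p) '' K) ⊆ (fun x => Θ x + p) '' ridge δ K := by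
  rintro x' ⟨⟨x, hx, rfl⟩, a, b, h1, h2, ⟨w₁, hw₁, w₂, hw₂, h3, h3'⟩, ⟨w₃, hw₃, w₄, hw₄, h4⟩⟩
  obtain ⟨u₁, hu₁, rfl⟩ := hw₁
  obtain ⟨u₂, hu₂, rfl⟩ := hw₂
  obtain ⟨u₃, hu₃, rfl⟩ := hw₃
  obtain ⟨u₄, hu₄, rfl⟩ := hw₄
  have e : ∀ u v : V, (Θ u + p) - (Θ v + p) = Θ (u - v) := by
    intro u v
    simp
  refine ⟨x, ⟨hx, a.comp Θ.toLinearMap, b.comp Θ.toLinearMap, ?_, ?_, ?_, ?_⟩, rfl⟩
  · intro w hw
    have := h1 (Θ w + p) ⟨w, hw, rfl⟩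
    simp only [e] at this
    simpa using this
  · intro w hw w' hw'
    have := h2 (Θ w + p) ⟨w, hw, rfl⟩ (Θ w' + p) ⟨w', hw', rfl⟩
    simp only [e] at this
    simpa using this
  · refine ⟨u₁, hu₁, u₂, hu₂, ?_, ?_⟩
    · simp only [e] at h3
      simpa using h3
    · simp only [e] at h3'
      simpa using h3'
  · refine ⟨u₃, hu₃, u₄, hu₄, ?_⟩
    simp only [e] at h4
    simpa using h4

end Vale.Agent.Lib.P243
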