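import Vale.Agent.Lib.P243.VolumeBound
import Vale.Agent.Lib.P243.Ridge

/-! Ends of long chords of a nearly conical body lie in the ridge set. -/

namespace Vale.Agent.Lib.P243

open MeasureTheory Set

variable {K : Set (Pl × ℝ)}

/-- In a nearly conical body, the chord length decays at a definite rate near a longest chord. -/
lemma flat (hc : IsCompact K) (hv : Convex ℝ K) {L : ℝ} (hL0 : 0 < L)
    (hL : ∀ y ∈ shadow K, len K y ≤ L)
    (hA0 : volume (shadow K) ≠ 0)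
    {ρ θ h : ℝ} (hρ0 : 0 ≤ ρ) (hρ1 : ρ ≤ 1 / 8) (hθ : 0 ≤ θ) (hh : 2 * ρ + θ ≤ h)
    (hvol : volume K ≤ ENNReal.ofReal ((1 + θ) * L / 3) * volume (shadow K))
    {y : Pl} (hy : y ∈ shadow K) (hly : (1 - ρ) * L ≤ len K y)
    (f : Pl →ₗ[ℝ] ℝ) (hf : ∀ d ∈ shadow K, ∀ d' ∈ shadow K, f (d - d') ≤ L / 8)
    {y' : Pl} (hy' : y' ∈ shadow K) :
    len K y' + f (y' - y) ≤ len K y + h * L := by
  by_contra hcon
  push_neg at hcon
  set t := f (y' - y) with ht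
  have hly' := hL y' hy'
  have hρh : ρ ≤ h := by linarith
  have ht1 : (h - ρ) * L < t := by nlinarith
  have ht0 : 0 ≤ t := by
    have : 0 ≤ (h - ρ) * L := mul_nonneg (by linarith) hL0.le
    linarith
  have ht2 : t ≤ L / 8 := hf y' hy' y hy
  set h₀ := (1 - ρ) * L - t with hh₀
  have hh₀pos : 0 < h₀ := by
    have : (1 - ρ) * L ≥ 7 / 8 * L := by nlinarith
    nlinarith
  have hl1 : h₀ ≤ len K y := by
    rw [hh₀]
    linarith
  have hl2 : h₀ ≤ len K y' := by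
    rw [hh₀]
    have : 0 ≤ h * L := mul_nonneg (by linarith) hL0.le
    linarith
  have hmain := volume_lower hc hv hy hy' hh₀pos hl1 hl2 f (by positivity : 0 < L / 8) hf rfl ht0
  have h3 := hmain.trans hvol
  have hAt : volume (shadow K) ≠ ⊤ := (isCompact_shadow hc).measure_lt_top.ne
  have h4 := (ENNReal.mul_le_mul_iff_left hA0 hAt).1 h3
  have h5 := (ENNReal.ofReal_le_ofReal_iff (by positivity)).1 h4
  -- pass to the ratio `τ = t / L`
  obtain ⟨τ, hτ⟩ : ∃ τ, t = τ * L := ⟨t / L, by field_simp⟩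
  have hτ0 : 0 ≤ τ := by
    by_contra hneg
    push_neg at hneg
    nlinarith
  have hτ1 : τ ≤ 1 / 8 := by
    have : τ * L ≤ 1 / 8 * L := by
      rw [← hτ]
      linarith
    exact le_of_mul_le_mul_right this hL0
  have hτ2 : h - ρ < τ := by
    have : (h - ρ) * L < τ * L := by
      rw [← hτ]
      exact ht1
    exact lt_of_mul_lt_mul_right this hL0.le
  have e1 : t / (L / 8) = 8 * τ := by
    rw [hτ]
    field_simp
  have e2 : h₀ = (1 - ρ - τ) * L := by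
    rw [hh₀, hτ]
    ring
  rw [e1, e2] at h5
  have h6 : (1 - ρ - τ) * (1 + 4 * τ) ≤ 1 + θ := by
    have : ((1 - ρ - τ) * (1 + 4 * τ)) * L ≤ (1 + θ) * L := by
      nlinarith
    exact le_of_mul_le_mul_right this hL0
  nlinarith [mul_nonneg hρ0 hτ0, mul_nonneg hτ0 (by linarith : 0 ≤ 1 / 8 - τ)]

/-- A separating plane between the top of a sheared copy of `K` and the bottom of a shifted copy. -/
lemma separation (hc : IsCompact K) (hv : Convex ℝ K) {y : Pl} (hy : y ∈ shadow K)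
    (f : Pl →ₗ[ℝ] ℝ) {η η' : ℝ} (hη : η < η')
    (hflat : ∀ y' ∈ shadow K, len K y' + f (y' - y) ≤ len K y + η) :
    ∃ (μ : Pl →ₗ[ℝ] ℝ) (c : ℝ), 0 < c ∧ c < η' ∧ ∀ y' z, (y', z) ∈ K →
      z + f (y' - y) - hi K y < c + μ (y' - y) ∧ c + μ (y' - y) < z - lo K y + η' := by
  have hfc : Continuous f := f.continuous_of_finiteDimensional
  have hη0 : 0 ≤ η := by
    have := hflat y hy
    simp only [sub_self, map_zero, add_zero] at this
    linarith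
  have hη'0 : 0 < η' := by linarith
  set Ψ₁ : Pl × ℝ → Pl × ℝ := fun w => (w.1, w.2 + f (w.1 - y) - hi K y) with hΨ₁
  set Ψ₂ : Pl × ℝ → Pl × ℝ := fun w => (w.1, w.2 - lo K y + η') with hΨ₂
  have hΨ₁c : Continuous Ψ₁ := by
    rw [hΨ₁]
    fun_prop
  have hΨ₂c : Continuous Ψ₂ := by
    rw [hΨ₂]
    fun_prop
  have hC₁ : IsCompact (Ψ₁ '' K) := hc.image hΨ₁c
  have hC₂ : IsCompact (Ψ₂ '' K) := hc.image hΨ₂c
  have hC₁v : Convex ℝ (Ψ₁ '' K) := by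
    rintro _ ⟨u, hu, rfl⟩ _ ⟨w, hw, rfl⟩ a b ha hb hab
    refine ⟨a • u + b • w, hv hu hw ha hb hab, ?_⟩
    have hb' : b = 1 - a := by linarith
    subst hb'
    ext
    · simp [hΨ₁]
    · simp [hΨ₁]
    · simp [hΨ₁, map_add, map_sub, map_smul]
      ring
  have hC₂v : Convex ℝ (Ψ₂ '' K) := by
    rintro _ ⟨u, hu, rfl⟩ _ ⟨w, hw, rfl⟩ a b ha hb hab
    refine ⟨a • u + b • w, hv hu hw ha hb hab, ?_⟩
    have hb' : b = 1 - a := by linarith
    subst hb'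
    ext
    · simp [hΨ₂]
    · simp [hΨ₂]
    · simp [hΨ₂]
      ring
  have hdisj : Disjoint (Ψ₁ '' K) (Ψ₂ '' K) := by
    rw [Set.disjoint_left]
    rintro _ ⟨⟨y₁, z₁⟩, h₁, rfl⟩ ⟨⟨y₂, z₂⟩, h₂, h⟩
    simp only [hΨ₁, hΨ₂, Prod.mk.injEq] at h
    obtain ⟨rfl, h⟩ := h
    have hy₂ : y₂ ∈ shadow K := mem_shadow.2 ⟨z₁, h₁⟩
    have h3 := sub_le_len hc h₂ h₁
    have h4 := hflat y₂ hy₂
    unfold len at h3 h4
    linarith
  obtain ⟨g, u, v, hg₁, huv, hg₂⟩ :=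
    geometric_hahn_banach_compact_closed hC₁v hC₁ hC₂v hC₂.isClosed hdisj
  set g₃ := g ((0 : Pl), (1 : ℝ)) with hg₃
  let gP : Pl →ₗ[ℝ] ℝ := (g : (Pl × ℝ) →ₗ[ℝ] ℝ).comp (LinearMap.inl ℝ Pl ℝ)
  have hgP : ∀ p, gP p = g (p, 0) := fun p => rfl
  have hgsplit : ∀ p z, g (p, z) = gP p + z * g₃ := by
    intro p z
    have : ((p, z) : Pl × ℝ) = (p, 0) + z • ((0 : Pl), (1 : ℝ)) := by
      ext <;> simp
    rw [this, map_add, map_smul, hgP, smul_eq_mul]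
  have h1 : gP y < u := by
    have := hg₁ (Ψ₁ (y, hi K y)) ⟨_, hi_mem hc hy, rfl⟩
    simpa [hΨ₁, hgP] using this
  have h2 : v < gP y + η' * g₃ := by
    have := hg₂ (Ψ₂ (y, lo K y)) ⟨_, lo_mem hc hy, rfl⟩
    simp only [hΨ₂, sub_self, zero_add, hgsplit] at this
    exact this
  have hg₃pos : 0 < g₃ := by
    by_contra hneg
    push_neg at hneg
    have : η' * g₃ ≤ 0 := mul_nonpos_of_nonneg_of_nonpos hη'0.le hneg
    linarith
  refine ⟨(-(1 / g₃)) • gP, (u - gP y) / g₃, ?_, ?_, ?_⟩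
  · exact div_pos (by linarith) hg₃pos
  · rw [div_lt_iff₀ hg₃pos]
    linarith
  · intro y' z hz
    have h3 := hg₁ (Ψ₁ (y', z)) ⟨_, hz, rfl⟩
    have h4 := hg₂ (Ψ₂ (y', z)) ⟨_, hz, rfl⟩
    simp only [hΨ₁, hΨ₂, hgsplit] at h3 h4
    have e : (u - gP y) / g₃ + ((-(1 / g₃)) • gP) (y' - y) = (u - gP y') / g₃ := by
      simp only [LinearMap.smul_apply, map_sub, smul_eq_mul]
      field_simp
      ring
    rw [e]
    constructor
    · rw [lt_div_iff₀ hg₃pos]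
      linarith
    · rw [div_lt_iff₀ hg₃pos]
      linarith

/-- There is a linear functional with prescribed oscillation on a shadow of nonzero area. -/
lemma exists_oscillation (hc : IsCompact K) (hA0 : volume (shadow K) ≠ 0) {L : ℝ} (hL0 : 0 < L) :
    ∃ (f : Pl →ₗ[ℝ] ℝ) (d₁ d₂ : Pl), d₁ ∈ shadow K ∧ d₂ ∈ shadow K ∧ f (d₁ - d₂) = L / 8 ∧
      ∀ d ∈ shadow K, ∀ d' ∈ shadow K, f (d - d') ≤ L / 8 := by
  have hD := isCompact_shadow hc
  have hne : (shadow K).Nonempty := by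
    by_contra hcon
    rw [not_nonempty_iff_eq_empty] at hcon
    exact hA0 (by rw [hcon]; simp)
  obtain ⟨d₁, hd₁, hmax⟩ := hD.exists_isMaxOn hne
    (f := fun p : Pl => p.1) (by fun_prop)
  obtain ⟨d₂, hd₂, hmin⟩ := hD.exists_isMinOn hne
    (f := fun p : Pl => p.1) (by fun_prop)
  have hR : 0 < d₁.1 - d₂.1 := by
    by_contra hcon
    push_neg at hcon
    apply hA0
    have hsub : shadow K ⊆ {d₁.1} ×ˢ (univ : Set ℝ) := by
      intro p hp
      have h1 : p.1 ≤ d₁.1 := hmax hp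
      have h2 : d₂.1 ≤ p.1 := hmin hp
      simp only [mem_prod, mem_singleton_iff, mem_univ, and_true]
      linarith
    refine measure_mono_null hsub ?_
    rw [Measure.volume_eq_prod, Measure.prod_prod]
    simp
  refine ⟨(L / 8 / (d₁.1 - d₂.1)) • LinearMap.fst ℝ ℝ ℝ, d₁, d₂, hd₁, hd₂, ?_, ?_⟩
  · simp only [LinearMap.smul_apply, LinearMap.fst_apply, smul_eq_mul, Prod.fst_sub]
    field_simp
  · intro d hd d' hd'
    have h1 : d.1 ≤ d₁.1 := hmax hd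
    have h2 : d₂.1 ≤ d'.1 := hmin hd'
    simp only [LinearMap.smul_apply, LinearMap.fst_apply, smul_eq_mul, Prod.fst_sub]
    rw [div_mul_eq_mul_div, div_le_iff₀ hR]
    have : 0 < L / 8 := by positivity
    nlinarith

/-- Functional of the form `(z - μ p) / L`. -/
noncomputable def lowFn (L : ℝ) (μ : Pl →ₗ[ℝ] ℝ) : (Pl × ℝ) →ₗ[ℝ] ℝ :=
  (1 / L) • (LinearMap.snd ℝ Pl ℝ - μ.comp (LinearMap.fst ℝ Pl ℝ))

lemma lowFn_apply (L : ℝ) (μ : Pl →ₗ[ℝ] ℝ) (w : Pl × ℝ) : lowFn L μ w = (w.2 - μ w.1) / L := by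
  simp [lowFn]
  ring

/-- Functional of the form `(μ p - f p - z) / L`. -/
noncomputable def topFn (L : ℝ) (μ f : Pl →ₗ[ℝ] ℝ) : (Pl × ℝ) →ₗ[ℝ] ℝ :=
  (1 / L) • ((μ - f).comp (LinearMap.fst ℝ Pl ℝ) - LinearMap.snd ℝ Pl ℝ)

lemma topFn_apply (L : ℝ) (μ f : Pl →ₗ[ℝ] ℝ) (w : Pl × ℝ) :
    topFn L μ f w = (μ w.1 - f w.1 - w.2) / L := by
  simp [topFn]
  ring

/-- The four estimates, for one separating plane. -/
lemma estimates (hc : IsCompact K) {L h : ℝ} (hL0 : 0 < L) (hh1 : h ≤ 1 / 16)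
    {y : Pl} (hly : len K y ≤ L) {f μ : Pl →ₗ[ℝ] ℝ} {c : ℝ} (hc0 : 0 < c) (hc1 : c < 2 * h * L)
    (hf : ∀ d ∈ shadow K, f (y - d) ≤ L / 8)
    (hsep : ∀ y' z, (y', z) ∈ K →
      z + f (y' - y) - hi K y < c + μ (y' - y) ∧ c + μ (y' - y) < z - lo K y + 2 * h * L) :
    (∀ z, z ≤ lo K y + h * L → ∀ w ∈ K, lowFn L μ ((y, z) - w) ≤ 3 * h) ∧
    (∀ w ∈ K, ∀ w' ∈ K, lowFn L μ (w - w') ≤ 5 / 4) ∧
    (∀ z, hi K y - h * L ≤ z → ∀ w ∈ K, topFn L μ f ((y, z) - w) ≤ 3 * h) ∧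
    (∀ w ∈ K, ∀ w' ∈ K, topFn L μ f (w - w') ≤ 5 / 4) := by
  have hb : (1 + 2 * h + 1 / 8) * L ≤ 5 / 4 * L := by
    apply mul_le_mul_of_nonneg_right _ hL0.le
    linarith
  unfold len at hly
  refine ⟨?_, ?_, ?_, ?_⟩
  · rintro z hz ⟨p, s⟩ hw
    obtain ⟨_, h2⟩ := hsep p s hw
    rw [lowFn_apply, div_le_iff₀ hL0]
    have e : μ (y - p) = - μ (p - y) := by
      rw [← map_neg, neg_sub]
    simp only [Prod.mk_sub_mk, e]
    linarith
  · rintro ⟨p, s⟩ hw ⟨p', s'⟩ hw'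
    obtain ⟨h1, _⟩ := hsep p s hw
    obtain ⟨_, h2⟩ := hsep p' s' hw'
    rw [lowFn_apply, div_le_iff₀ hL0]
    have e : μ (p - p') = μ (p - y) - μ (p' - y) := by
      rw [← map_sub]
      congr 1
      abel
    have e2 : f (p - y) = - f (y - p) := by
      rw [← map_neg, neg_sub]
    have h3 := hf p (mem_shadow.2 ⟨s, hw⟩)
    simp only [Prod.mk_sub_mk, e]
    rw [e2] at h1
    linarith
  · rintro z hz ⟨p, s⟩ hw
    obtain ⟨h1, _⟩ := hsep p s hw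
    rw [topFn_apply, div_le_iff₀ hL0]
    have e : μ (y - p) = - μ (p - y) := by
      rw [← map_neg, neg_sub]
    have e2 : f (y - p) = - f (p - y) := by
      rw [← map_neg, neg_sub]
    simp only [Prod.mk_sub_mk, e, e2]
    linarith
  · rintro ⟨p, s⟩ hw ⟨p', s'⟩ hw'
    obtain ⟨h1, _⟩ := hsep p' s' hw'
    obtain ⟨_, h2⟩ := hsep p s hw
    rw [topFn_apply, div_le_iff₀ hL0]
    have e : μ (p - p') = μ (p - y) - μ (p' - y) := by
      rw [← map_sub]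
      congr 1
      abel
    have e3 : f (p - p') = f (p - y) - f (p' - y) := by
      rw [← map_sub]
      congr 1
      abel
    have e2 : f (p - y) = - f (y - p) := by
      rw [← map_neg, neg_sub]
    have h3 := hf p (mem_shadow.2 ⟨s, hw⟩)
    simp only [Prod.mk_sub_mk, e, e3]
    rw [e2]
    linarith

/-- The main dichotomy: near a long chord of a nearly conical body, one end of the chord
lies in the ridge set. -/
lemma chord_ends_in_ridge (hc : IsCompact K) (hv : Convex ℝ K) {L : ℝ} (hL0 : 0 < L)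
    (hL : ∀ y ∈ shadow K, len K y ≤ L)
    (hA0 : volume (shadow K) ≠ 0)
    {ρ θ h : ℝ} (hρ0 : 0 ≤ ρ) (hθ : 0 ≤ θ) (hh : 2 * ρ + θ ≤ h) (hh0 : 0 < h) (hh1 : h ≤ 1 / 16)
    (hvol : volume K ≤ ENNReal.ofReal ((1 + θ) * L / 3) * volume (shadow K))
    {y : Pl} (hy : y ∈ shadow K) (hly : (1 - ρ) * L ≤ len K y) :
    (∀ z, (y, z) ∈ K → z ≤ lo K y + h * L → (y, z) ∈ ridge (3 * h) K) ∨
    (∀ z, (y, z) ∈ K → hi K y - h * L ≤ z → (y, z) ∈ ridge (3 * h) K) := by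
  obtain ⟨f, d₁, d₂, hd₁, hd₂, hfd, hf⟩ := exists_oscillation hc hA0 hL0
  have hρ1 : ρ ≤ 1 / 8 := by linarith
  have hfl₁ : ∀ y' ∈ shadow K, len K y' + f (y' - y) ≤ len K y + h * L := fun y' hy' => flat hc hv hL0 hL hA0 hρ0 hρ1 hθ hh hvol hy hly f hf hy'
  have hf' : ∀ d ∈ shadow K, ∀ d' ∈ shadow K, (-f) (d - d') ≤ L / 8 := by
    intro d hd d' hd'
    have := hf d' hd' d hd
    rw [LinearMap.neg_apply, ← map_neg, neg_sub]
    exact this
  have hfl₂ : ∀ y' ∈ shadow K, len K y' + (-f) (y' - y) ≤ len K y + h * L := fun y' hy' => flat hc hv hL0 hL hA0 hρ0 hρ1 hθ hh hvol hy hly (-f) hf' hy'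
  have hhL : 0 < h * L := mul_pos hh0 hL0
  obtain ⟨μ₁, c₁, hc₁0, hc₁1, hsep₁⟩ :=
    separation hc hv hy f (η := h * L) (η' := 2 * h * L) (by nlinarith) hfl₁
  obtain ⟨μ₂, c₂, hc₂0, hc₂1, hsep₂⟩ :=
    separation hc hv hy (-f) (η := h * L) (η' := 2 * h * L) (by nlinarith) hfl₂
  have hyL := hL y hy
  obtain ⟨e₁, e₂, e₃, e₄⟩ := estimates hc hL0 hh1 hyL hc₁0 hc₁1 (fun d hd => hf y hy d hd) hsep₁
  obtain ⟨g₁, g₂, g₃, g₄⟩ := estimates hc hL0 hh1 hyL hc₂0 hc₂1 (fun d hd => hf' y hy d hd) hsep₂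
  have hlo := lo_mem hc hy
  have hhi := hi_mem hc hy
  have hlo₁ := lo_mem hc hd₁
  have hlo₂ := lo_mem hc hd₂
  have hlenhalf : 1 / 2 ≤ len K y / L := by
    rw [le_div_iff₀ hL0]
    nlinarith
  by_cases hcase : L / 8 ≤ (μ₁ - μ₂) (d₁ - d₂)
  · left
    intro z hz hz2
    refine ⟨hz, lowFn L μ₁, lowFn L μ₂, ?_, ?_, ?_, ?_⟩
    · exact fun w hw => ⟨e₁ z hz2 w hw, g₁ z hz2 w hw⟩
    · exact fun w hw w' hw' => ⟨e₂ w hw w' hw', g₂ w hw w' hw'⟩
    · refine ⟨_, hhi, _, hlo, ?_, ?_⟩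
      · simp [lowFn_apply]
      · simp only [lowFn_apply, Prod.mk_sub_mk, sub_self, map_zero, sub_zero]
        exact hlenhalf
    · refine ⟨_, hlo₂, _, hlo₁, ?_⟩
      simp only [lowFn_apply, Prod.mk_sub_mk, sub_self, zero_sub]
      rw [← sub_div, le_div_iff₀ hL0]
      have e : (μ₁ - μ₂) (d₁ - d₂) = - μ₁ (d₂ - d₁) + μ₂ (d₂ - d₁) := by
        simp only [LinearMap.sub_apply, map_sub]
        ring
      rw [e] at hcase
      linarith
  · right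
    push_neg at hcase
    intro z hz hz2
    refine ⟨hz, topFn L μ₁ f, topFn L μ₂ (-f), ?_, ?_, ?_, ?_⟩
    · exact fun w hw => ⟨e₃ z hz2 w hw, g₃ z hz2 w hw⟩
    · exact fun w hw w' hw' => ⟨e₄ w hw w' hw', g₄ w hw w' hw'⟩
    · refine ⟨_, hlo, _, hhi, ?_, ?_⟩
      · simp [topFn_apply]
      · simp only [topFn_apply, Prod.mk_sub_mk, sub_self, map_zero, sub_zero, zero_sub, neg_sub]
        exact hlenhalf
    · refine ⟨_, hlo₂, _, hlo₁, ?_⟩
      simp only [topFn_apply, Prod.mk_sub_mk, sub_self]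
      rw [← sub_div, le_div_iff₀ hL0]
      have e : (μ₁ - μ₂) (d₁ - d₂) = - μ₁ (d₂ - d₁) + μ₂ (d₂ - d₁) := by
        simp only [LinearMap.sub_apply, map_sub]
        ring
      have e' : f (d₂ - d₁) = - f (d₁ - d₂) := by
        rw [← map_neg, neg_sub]
      rw [e] at hcase
      simp only [LinearMap.neg_apply, e', hfd]
      linarith

end Vale.Agent.Lib.P243
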