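import Vale.Agent.Lib.P243.Ridge

/-! The volume of the ridge set of a normalized body is of second order. -/

namespace Vale.Agent.Lib.P243

open MeasureTheory Set

/-- Coordinate space. -/
abbrev R3 := Fin 3 → ℝ

/-- Standard basis vectors. -/
noncomputable def bv (m : Fin 3) : R3 := Pi.single m 1

lemma lin_expand (a : R3 →ₗ[ℝ] ℝ) (v : R3) :
    a v = v 0 * a (bv 0) + v 1 * a (bv 1) + v 2 * a (bv 2) := by
  have e : v = v 0 • bv 0 + v 1 • bv 1 + v 2 • bv 2 := by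
    ext m
    fin_cases m <;> simp [bv]
  conv_lhs => rw [e]
  simp only [map_add, map_smul, smul_eq_mul]

lemma lin_expand' (a : R3 →ₗ[ℝ] ℝ) (v : R3) (k : Fin 3) :
    a v = v k * a (bv k) + v (k + 1) * a (bv (k + 1)) + v (k + 2) * a (bv (k + 2)) := by
  rw [lin_expand]
  fin_cases k
  · simp
  · have h1 : ((⟨1, by omega⟩ : Fin 3) : Fin 3) + 1 = 2 := rfl
    have h2 : ((⟨1, by omega⟩ : Fin 3) : Fin 3) + 2 = 0 := rfl
    simp only [Fin.mk_one, Fin.isValue] at *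
    simp only [h1, h2, Fin.isValue]
    ring
  · have h1 : ((⟨2, by omega⟩ : Fin 3) : Fin 3) + 1 = 0 := rfl
    have h2 : ((⟨2, by omega⟩ : Fin 3) : Fin 3) + 2 = 1 := rfl
    simp only [Fin.reduceFinMk, Fin.isValue] at *
    simp only [h1, h2, Fin.isValue]
    ring

/-- Elimination of one coordinate in a two by three system. -/
lemma core_elim {α₁ α₂ α₃ β₁ β₂ β₃ v₁ v₂ v₃ δ A : ℝ}
    (hα₁ : |α₁| ≤ 5 / 4) (hα₂ : |α₂| ≤ 5 / 4) (hα₃ : |α₃| ≤ 5 / 4)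
    (hβ₁ : |β₁| ≤ 5 / 4) (hβ₂ : |β₂| ≤ 5 / 4) (hβ₃ : |β₃| ≤ 5 / 4)
    (hn : 1 / 384 ≤ |α₂ * β₃ - α₃ * β₂|) (hv₁ : |v₁| ≤ δ)
    (hA : |α₁ * v₁ + α₂ * v₂ + α₃ * v₃| ≤ A) (hB : |β₁ * v₁ + β₂ * v₂ + β₃ * v₃| ≤ A) :
    |v₂| ≤ 960 * (A + 5 / 4 * δ) ∧ |v₃| ≤ 960 * (A + 5 / 4 * δ) := by
  have hδ : 0 ≤ δ := (abs_nonneg _).trans hv₁
  have hA0 : 0 ≤ A := (abs_nonneg _).trans hA
  set X := α₁ * v₁ + α₂ * v₂ + α₃ * v₃ with hX
  set Y := β₁ * v₁ + β₂ * v₂ + β₃ * v₃ with hY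
  have h1 : |X - α₁ * v₁| ≤ A + 5 / 4 * δ := by
    refine (abs_sub _ _).trans ?_
    rw [abs_mul]
    have : |α₁| * |v₁| ≤ 5 / 4 * δ :=
      mul_le_mul hα₁ hv₁ (abs_nonneg _) (by norm_num)
    linarith
  have h2 : |Y - β₁ * v₁| ≤ A + 5 / 4 * δ := by
    refine (abs_sub _ _).trans ?_
    rw [abs_mul]
    have : |β₁| * |v₁| ≤ 5 / 4 * δ :=
      mul_le_mul hβ₁ hv₁ (abs_nonneg _) (by norm_num)
    linarith
  set P := A + 5 / 4 * δ with hP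
  have hP0 : 0 ≤ P := by positivity
  have key : ∀ t u w s : ℝ, |u| ≤ 5 / 4 → |s| ≤ 5 / 4 → t * (α₂ * β₃ - α₃ * β₂)
      = (X - α₁ * v₁) * u - (Y - β₁ * v₁) * s → |t| ≤ 960 * P := by
    intro t u w s hu hs he
    have h3 : |t| * |α₂ * β₃ - α₃ * β₂| ≤ 5 / 2 * P := by
      rw [← abs_mul, he]
      refine (abs_sub _ _).trans ?_
      rw [abs_mul, abs_mul]
      have h4 := mul_le_mul h1 hu (abs_nonneg _) hP0
      have h5 := mul_le_mul h2 hs (abs_nonneg _) hP0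
      linarith
    have h6 : |t| * (1 / 384) ≤ |t| * |α₂ * β₃ - α₃ * β₂| :=
      mul_le_mul_of_nonneg_left hn (abs_nonneg _)
    linarith
  constructor
  · exact key v₂ β₃ 0 α₃ hβ₃ hα₃ (by rw [hX, hY]; ring)
  · exact key v₃ (-β₂) 0 (-α₂) (by rwa [abs_neg]) (by rwa [abs_neg]) (by rw [hX, hY]; ring)

/-- Data attached to a ridge point. -/
def RData (K : Set R3) (δ : ℝ) (x : R3) (a b : R3 →ₗ[ℝ] ℝ) (k : Fin 3) : Prop :=
  (∀ w ∈ K, a (x - w) ≤ δ ∧ b (x - w) ≤ δ) ∧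
  (∀ m, |a (bv m)| ≤ 5 / 4 ∧ |b (bv m)| ≤ 5 / 4) ∧
  1 / 384 ≤ |a (bv (k + 1)) * b (bv (k + 2)) - a (bv (k + 2)) * b (bv (k + 1))|

lemma abs_mul_sub_le {p q r s : ℝ} (hp : |p| ≤ 2) (hq : |q| ≤ 2) (hr : |r| ≤ 2) (hs : |s| ≤ 2) :
    |p * q - r * s| ≤ 8 := by
  refine (abs_sub _ _).trans ?_
  rw [abs_mul, abs_mul]
  have h1 := mul_le_mul hp hq (abs_nonneg _) (by norm_num)
  have h2 := mul_le_mul hr hs (abs_nonneg _) (by norm_num)
  linarith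

/-- A purely numerical consequence of the Binet-Cauchy identity. -/
lemma binet_contra {α₀ α₁ α₂ β₀ β₁ β₂ w₀ w₁ w₂ u₀ u₁ u₂ : ℝ}
    (hn₀ : |α₁ * β₂ - α₂ * β₁| < 1 / 384) (hn₁ : |α₂ * β₀ - α₀ * β₂| < 1 / 384)
    (hn₂ : |α₀ * β₁ - α₁ * β₀| < 1 / 384)
    (hw₀ : |w₀| ≤ 2) (hw₁ : |w₁| ≤ 2) (hw₂ : |w₂| ≤ 2)
    (hu₀ : |u₀| ≤ 2) (hu₁ : |u₁| ≤ 2) (hu₂ : |u₂| ≤ 2)
    (h3 : w₀ * α₀ + w₁ * α₁ + w₂ * α₂ = w₀ * β₀ + w₁ * β₁ + w₂ * β₂)
    (h3' : 1 / 2 ≤ w₀ * α₀ + w₁ * α₁ + w₂ * α₂)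
    (h4 : 1 / 8 ≤ (u₀ * α₀ + u₁ * α₁ + u₂ * α₂) - (u₀ * β₀ + u₁ * β₁ + u₂ * β₂)) : False := by
  set n₀ := α₁ * β₂ - α₂ * β₁ with hn₀'
  set n₁ := α₂ * β₀ - α₀ * β₂ with hn₁'
  set n₂ := α₀ * β₁ - α₁ * β₀ with hn₂'
  set C₀ := w₁ * u₂ - w₂ * u₁ with hC₀
  set C₁ := w₂ * u₀ - w₀ * u₂ with hC₁
  set C₂ := w₀ * u₁ - w₁ * u₀ with hC₂
  set aw := w₀ * α₀ + w₁ * α₁ + w₂ * α₂ with haw
  set bw := w₀ * β₀ + w₁ * β₁ + w₂ * β₂ with hbw
  set au := u₀ * α₀ + u₁ * α₁ + u₂ * α₂ with hau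
  set bu := u₀ * β₀ + u₁ * β₁ + u₂ * β₂ with hbu
  have hid : aw * bu - au * bw = n₀ * C₀ + n₁ * C₁ + n₂ * C₂ := by
    simp only [haw, hbw, hau, hbu, hn₀', hn₁', hn₂', hC₀, hC₁, hC₂]
    ring
  have hC₀b : |C₀| ≤ 8 := abs_mul_sub_le hw₁ hu₂ hw₂ hu₁
  have hC₁b : |C₁| ≤ 8 := abs_mul_sub_le hw₂ hu₀ hw₀ hu₂
  have hC₂b : |C₂| ≤ 8 := abs_mul_sub_le hw₀ hu₁ hw₁ hu₀
  have hsum : |n₀ * C₀ + n₁ * C₁ + n₂ * C₂| < 1 / 16 := by
    have t0 : |n₀ * C₀| < 8 / 384 := by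
      rw [abs_mul]
      nlinarith [abs_nonneg n₀, abs_nonneg C₀]
    have t1 : |n₁ * C₁| < 8 / 384 := by
      rw [abs_mul]
      nlinarith [abs_nonneg n₁, abs_nonneg C₁]
    have t2 : |n₂ * C₂| < 8 / 384 := by
      rw [abs_mul]
      nlinarith [abs_nonneg n₂, abs_nonneg C₂]
    have t3 := abs_add_le (n₀ * C₀ + n₁ * C₁) (n₂ * C₂)
    have t4 := abs_add_le (n₀ * C₀) (n₁ * C₁)
    linarith
  rw [← hid] at hsum
  have e : aw * bu - au * bw = - (aw * (au - bu)) := by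
    rw [← h3]
    ring
  rw [e, abs_neg] at hsum
  have hpos : 1 / 16 ≤ aw * (au - bu) := by nlinarith
  rw [abs_of_nonneg (by linarith)] at hsum
  linarith

lemma exists_data {K : Set R3} (h0 : (0 : R3) ∈ K) (he : ∀ m, bv m ∈ K)
    (hb : ∀ x ∈ K, ∀ m, |x m| ≤ 1) {δ : ℝ} {x : R3} (hx : x ∈ ridge δ K) :
    ∃ a b k, RData K δ x a b k := by
  obtain ⟨_, a, b, h1, h2, ⟨w₁, hw₁, w₂, hw₂, h3, h3'⟩, ⟨w₃, hw₃, w₄, hw₄, h4⟩⟩ := hx
  have hcoef : ∀ m, |a (bv m)| ≤ 5 / 4 ∧ |b (bv m)| ≤ 5 / 4 := by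
    intro m
    have h5 := h2 (bv m) (he m) 0 h0
    have h6 := h2 0 h0 (bv m) (he m)
    simp only [sub_zero, zero_sub, map_neg] at h5 h6
    exact ⟨abs_le.2 ⟨by linarith [h6.1], h5.1⟩, abs_le.2 ⟨by linarith [h6.2], h5.2⟩⟩
  suffices hk : ∃ k, 1 / 384 ≤ |a (bv (k + 1)) * b (bv (k + 2)) - a (bv (k + 2)) * b (bv (k + 1))| by
    obtain ⟨k, hk⟩ := hk
    exact ⟨a, b, k, h1, hcoef, hk⟩
  by_contra hcon
  push_neg at hcon
  have hn0 := hcon 0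
  have hn1 := hcon 1
  have hn2 := hcon 2
  have e01 : (0 : Fin 3) + 1 = 1 := rfl
  have e02 : (0 : Fin 3) + 2 = 2 := rfl
  have e11 : (1 : Fin 3) + 1 = 2 := rfl
  have e12 : (1 : Fin 3) + 2 = 0 := rfl
  have e21 : (2 : Fin 3) + 1 = 0 := rfl
  have e22 : (2 : Fin 3) + 2 = 1 := rfl
  rw [e01, e02] at hn0
  rw [e11, e12] at hn1
  rw [e21, e22] at hn2
  have hwb : ∀ m, |(w₁ - w₂) m| ≤ 2 := by
    intro m
    have := abs_sub (w₁ m) (w₂ m)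
    have h5 := hb w₁ hw₁ m
    have h6 := hb w₂ hw₂ m
    simp only [Pi.sub_apply]
    linarith
  have hub : ∀ m, |(w₃ - w₄) m| ≤ 2 := by
    intro m
    have := abs_sub (w₃ m) (w₄ m)
    have h5 := hb w₃ hw₃ m
    have h6 := hb w₄ hw₄ m
    simp only [Pi.sub_apply]
    linarith
  rw [lin_expand a (w₁ - w₂), lin_expand b (w₁ - w₂)] at h3
  rw [lin_expand a (w₁ - w₂)] at h3'
  rw [lin_expand a (w₃ - w₄), lin_expand b (w₃ - w₄)] at h4
  exact binet_contra hn0 hn1 hn2 (hwb 0) (hwb 1) (hwb 2) (hub 0) (hub 1) (hub 2) h3 h3' h4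

/-- One piece of the decomposition. -/
def piece (K : Set R3) (δ : ℝ) (A B : Fin 3 → ℤ) (k : Fin 3) (l : ℕ) : Set R3 :=
  {x | x ∈ K ∧ ⌊(x k + 1) / δ⌋₊ = l ∧ ∃ a b, RData K δ x a b k ∧
    (∀ m, ⌊a (bv m) * 3840⌋ = A m) ∧ (∀ m, ⌊b (bv m) * 3840⌋ = B m)}

lemma cell_close {r s : ℝ} (h : ⌊r * 3840⌋ = ⌊s * 3840⌋) : |r - s| ≤ 1 / 3840 := by
  have := Int.abs_sub_lt_one_of_floor_eq_floor h
  have e : r * 3840 - s * 3840 = (r - s) * 3840 := by ring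
  rw [e, abs_mul, abs_of_pos (by norm_num : (0 : ℝ) < 3840)] at this
  linarith

/-- Two points of a piece are close. -/
lemma piece_pair {K : Set R3} {δ : ℝ} (hδ : 0 < δ) (hb : ∀ x ∈ K, ∀ m, |x m| ≤ 1)
    {A B : Fin 3 → ℤ} {k : Fin 3} {l : ℕ} {x x' : R3}
    (hx : x ∈ piece K δ A B k l) (hx' : x' ∈ piece K δ A B k l) :
    |x k - x' k| ≤ δ ∧ |x (k + 1) - x' (k + 1)| + |x (k + 2) - x' (k + 2)| ≤ 8641 * δ := by
  obtain ⟨hxK, hl, a, b, ⟨h1, h2, h3⟩, hA, hB⟩ := hx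
  obtain ⟨hxK', hl', a', b', ⟨h1', h2', h3'⟩, hA', hB'⟩ := hx'
  have hkey : |x k - x' k| ≤ δ := by
    have hfl : ∀ {p q : R3}, p ∈ K → q ∈ K → ⌊(p k + 1) / δ⌋₊ = l → ⌊(q k + 1) / δ⌋₊ = l →
        p k - q k ≤ δ := by
      intro p q hp hq hpl hql
      have h4 : 0 ≤ (q k + 1) / δ := by
        have := (abs_le.1 (hb q hq k)).1
        apply div_nonneg _ hδ.le
        linarith
      have h5 := Nat.floor_le h4
      have h6 := Nat.lt_floor_add_one ((p k + 1) / δ)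
      rw [hql] at h5
      rw [hpl] at h6
      have h7 : (p k + 1) / δ - (q k + 1) / δ < 1 := by linarith
      rw [← sub_div, div_lt_one hδ] at h7
      linarith
    have h4 := hfl hxK hxK' hl hl'
    have h5 := hfl hxK' hxK hl' hl
    exact abs_le.2 ⟨by linarith, h4⟩
  refine ⟨hkey, ?_⟩
  set v := x - x' with hv
  have hvk : ∀ m, v m = x m - x' m := fun m => rfl
  rw [← hvk, ← hvk]
  rw [← hvk] at hkey
  set S := |v k| + |v (k + 1)| + |v (k + 2)| with hS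
  have hS0 : 0 ≤ S := by positivity
  have main : ∀ (c c' : R3 →ₗ[ℝ] ℝ), (∀ m, ⌊c (bv m) * 3840⌋ = ⌊c' (bv m) * 3840⌋) →
      c v ≤ δ → c' (x' - x) ≤ δ → |c v| ≤ δ + S / 3840 := by
    intro c c' hcell h4 h5
    have h6 : c' v = - c' (x' - x) := by
      rw [← map_neg, neg_sub]
    have hdiff : c v - c' v
        = v k * (c (bv k) - c' (bv k)) + v (k + 1) * (c (bv (k + 1)) - c' (bv (k + 1)))
          + v (k + 2) * (c (bv (k + 2)) - c' (bv (k + 2))) := by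
      rw [lin_expand' c v k, lin_expand' c' v k]
      ring
    have hterm : ∀ m m' : Fin 3,
        |v m * (c (bv m') - c' (bv m'))| ≤ |v m| / 3840 := by
      intro m m'
      rw [abs_mul, div_eq_mul_one_div]
      exact mul_le_mul_of_nonneg_left (cell_close (hcell m')) (abs_nonneg _)
    have h7 : |c v - c' v| ≤ S / 3840 := by
      rw [hdiff, hS]
      have t1 := hterm k k
      have t2 := hterm (k + 1) (k + 1)
      have t3 := hterm (k + 2) (k + 2)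
      have t4 := abs_add_le (v k * (c (bv k) - c' (bv k)) + v (k + 1) * (c (bv (k + 1)) - c' (bv (k + 1))))
        (v (k + 2) * (c (bv (k + 2)) - c' (bv (k + 2))))
      have t5 := abs_add_le (v k * (c (bv k) - c' (bv k))) (v (k + 1) * (c (bv (k + 1)) - c' (bv (k + 1))))
      linarith
    have h8 := abs_le.1 h7
    exact abs_le.2 ⟨by linarith [h8.1, h8.2], by linarith⟩
  have hacell : ∀ m, ⌊a (bv m) * 3840⌋ = ⌊a' (bv m) * 3840⌋ := fun m => (hA m).trans (hA' m).symm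
  have hbcell : ∀ m, ⌊b (bv m) * 3840⌋ = ⌊b' (bv m) * 3840⌋ := fun m => (hB m).trans (hB' m).symm
  have ha := main a a' hacell (h1 x' hxK').1 (h1' x hxK).1
  have hb' := main b b' hbcell (h1 x' hxK').2 (h1' x hxK).2
  have ea : a (bv k) * v k + a (bv (k + 1)) * v (k + 1) + a (bv (k + 2)) * v (k + 2) = a v := by
    rw [lin_expand' a v k]
    ring
  have eb : b (bv k) * v k + b (bv (k + 1)) * v (k + 1) + b (bv (k + 2)) * v (k + 2) = b v := by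
    rw [lin_expand' b v k]
    ring
  obtain ⟨h5, h6⟩ := core_elim (A := δ + S / 3840) (h2 k).1 (h2 (k + 1)).1 (h2 (k + 2)).1 (h2 k).2 (h2 (k + 1)).2
    (h2 (k + 2)).2 h3 hkey (by rw [ea]; exact ha) (by rw [eb]; exact hb')
  rw [hS] at h5 h6
  linarith

/-- Each piece is contained in a small box. -/
lemma piece_volume {K : Set R3} {δ : ℝ} (hδ : 0 < δ) (hb : ∀ x ∈ K, ∀ m, |x m| ≤ 1)
    (A B : Fin 3 → ℤ) (k : Fin 3) (l : ℕ) :
    volume (piece K δ A B k l) ≤ ENNReal.ofReal (8 * 8641 ^ 2 * δ ^ 3) := by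
  rcases (piece K δ A B k l).eq_empty_or_nonempty with hemp | ⟨x₀, hx₀⟩
  · rw [hemp]
    simp
  set s : Fin 3 → ℝ := fun m => if m = k then δ else 8641 * δ with hs
  have hsub : piece K δ A B k l ⊆ Icc (fun m => x₀ m - s m) (fun m => x₀ m + s m) := by
    intro x hx
    obtain ⟨h1, h2⟩ := piece_pair hδ hb hx hx₀
    have habs : ∀ m, |x m - x₀ m| ≤ s m := by
      intro m
      have hm : ∀ k m : Fin 3, m = k ∨ m = k + 1 ∨ m = k + 2 := by decide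
      have hne1 : ∀ k : Fin 3, k + 1 ≠ k := by decide
      have hne2 : ∀ k : Fin 3, k + 2 ≠ k := by decide
      rcases hm k m with rfl | rfl | rfl
      · simp only [hs, if_true]
        exact h1
      · simp only [hs, if_neg (hne1 k)]
        have := abs_nonneg (x (k + 2) - x₀ (k + 2))
        linarith
      · simp only [hs, if_neg (hne2 k)]
        have := abs_nonneg (x (k + 1) - x₀ (k + 1))
        linarith
    constructor
    · intro m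
      have := (abs_le.1 (habs m)).1
      simp only
      linarith
    · intro m
      have := (abs_le.1 (habs m)).2
      simp only
      linarith
  refine (measure_mono hsub).trans ?_
  rw [Real.volume_Icc_pi, ← ENNReal.ofReal_prod_of_nonneg]
  · apply le_of_eq
    congr 1
    rw [Fin.prod_univ_three]
    simp only [hs]
    fin_cases k <;> simp <;> ring
  · intro m _
    have : 0 ≤ s m := by
      simp only [hs]
      split_ifs <;> positivity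
    linarith

/-- The finite set of admissible cells. -/
noncomputable def cellSet : Finset (Fin 3 → ℤ) :=
  Fintype.piFinset (fun _ => Finset.Icc (-4800 : ℤ) 4800)

lemma mem_cellSet {A : Fin 3 → ℤ} :
    A ∈ cellSet ↔ ∀ m, A m ∈ Finset.Icc (-4800 : ℤ) 4800 := by
  unfold cellSet
  rw [Fintype.mem_piFinset]

lemma floor_mem_cell {r : ℝ} (hr : |r| ≤ 5 / 4) : ⌊r * 3840⌋ ∈ Finset.Icc (-4800 : ℤ) 4800 := by
  obtain ⟨h1, h2⟩ := abs_le.1 hr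
  rw [Finset.mem_Icc]
  constructor
  · apply Int.le_floor.2
    push_cast
    linarith
  · have : (⌊r * 3840⌋ : ℝ) ≤ 4800 := (Int.floor_le _).trans (by linarith)
    exact_mod_cast this

/-- Volume of the ridge set of a normalized body. -/
theorem ridge_volume_normalized {K : Set R3} (h0 : (0 : R3) ∈ K) (he : ∀ m, bv m ∈ K)
    (hb : ∀ x ∈ K, ∀ m, |x m| ≤ 1) {δ : ℝ} (hδ : 0 < δ) (hδ1 : δ ≤ 1) :
    volume (ridge δ K) ≤ ENNReal.ofReal (72 * 9601 ^ 6 * 8641 ^ 2 * δ ^ 2) := by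
  set N := ⌊2 / δ⌋₊ + 1 with hN
  set J : Finset ((Fin 3 → ℤ) × (Fin 3 → ℤ) × Fin 3 × ℕ) :=
    cellSet ×ˢ cellSet ×ˢ Finset.univ ×ˢ Finset.range N with hJ
  have hcov : ridge δ K ⊆ ⋃ j ∈ J, piece K δ j.1 j.2.1 j.2.2.1 j.2.2.2 := by
    intro x hx
    have hxK : x ∈ K := hx.1
    obtain ⟨a, b, k, hd⟩ := exists_data h0 he hb hx
    refine mem_iUnion₂.2 ⟨(fun m => ⌊a (bv m) * 3840⌋, fun m => ⌊b (bv m) * 3840⌋, k,
      ⌊(x k + 1) / δ⌋₊), ?_, hxK, rfl, a, b, hd, fun _ => rfl, fun _ => rfl⟩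
    simp only [hJ, Finset.mem_product, Finset.mem_univ, true_and, Finset.mem_range]
    refine ⟨?_, ?_, ?_⟩
    · rw [mem_cellSet]
      intro m
      have h7 : |a (bv m)| ≤ 5 / 4 := (hd.2.1 m).1
      exact floor_mem_cell h7
    · rw [mem_cellSet]
      intro m
      have h7 : |b (bv m)| ≤ 5 / 4 := (hd.2.1 m).2
      exact floor_mem_cell h7
    · rw [hN, Nat.lt_succ_iff]
      apply Nat.floor_le_floor
      have := (abs_le.1 (hb x hxK k)).2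
      apply div_le_div_of_nonneg_right _ hδ.le
      linarith
  have hcard : (J.card : ℝ) = 9601 ^ 6 * 3 * N := by
    simp [hJ, cellSet, Finset.card_product, Fintype.card_piFinset]
    norm_num
    ring
  have hNδ : (N : ℝ) * δ ≤ 3 := by
    have h1 : (⌊2 / δ⌋₊ : ℝ) ≤ 2 / δ := Nat.floor_le (by positivity)
    rw [hN]
    push_cast
    have h2 : (2 / δ) * δ = 2 := by field_simp
    nlinarith
  calc volume (ridge δ K)
      ≤ volume (⋃ j ∈ J, piece K δ j.1 j.2.1 j.2.2.1 j.2.2.2) := measure_mono hcov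
    _ ≤ ∑ j ∈ J, volume (piece K δ j.1 j.2.1 j.2.2.1 j.2.2.2) := measure_biUnion_finset_le _ _
    _ ≤ ∑ _j ∈ J, ENNReal.ofReal (8 * 8641 ^ 2 * δ ^ 3) :=
        Finset.sum_le_sum fun j _ => piece_volume hδ hb _ _ _ _
    _ = (J.card : ENNReal) * ENNReal.ofReal (8 * 8641 ^ 2 * δ ^ 3) := by
        rw [Finset.sum_const, nsmul_eq_mul]
    _ = ENNReal.ofReal ((J.card : ℝ) * (8 * 8641 ^ 2 * δ ^ 3)) := by
        rw [ENNReal.ofReal_mul (Nat.cast_nonneg _), ENNReal.ofReal_natCast]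
    _ ≤ ENNReal.ofReal (72 * 9601 ^ 6 * 8641 ^ 2 * δ ^ 2) := by
        apply ENNReal.ofReal_le_ofReal
        rw [hcard]
        have h3 : (9601 : ℝ) ^ 6 * 3 * N * (8 * 8641 ^ 2 * δ ^ 3)
            = (9601 ^ 6 * 3 * (8 * 8641 ^ 2) * δ ^ 2) * (N * δ) := by ring
        rw [h3]
        have h4 : (0 : ℝ) ≤ 9601 ^ 6 * 3 * (8 * 8641 ^ 2) * δ ^ 2 := by positivity
        calc (9601 ^ 6 * 3 * (8 * 8641 ^ 2) * δ ^ 2) * (N * δ)
            ≤ (9601 ^ 6 * 3 * (8 * 8641 ^ 2) * δ ^ 2) * 3 := mul_le_mul_of_nonneg_left hNδ h4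
          _ = 72 * 9601 ^ 6 * 8641 ^ 2 * δ ^ 2 := by ring

end Vale.Agent.Lib.P243
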