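import Vale.Agent.Lib.P243.RidgeChord

/-! Sections of a body outside a ridge set, and the resulting bound for a cylinder. -/

namespace Vale.Agent.Lib.P243

open MeasureTheory Set

variable {K : Set (Pl × ℝ)}

lemma volume_eq_lintegral_sec (hm : MeasurableSet K) :
    volume K = ∫⁻ y, volume (sec K y) := by
  rw [Measure.volume_eq_prod, Measure.prod_apply hm]
  rfl

/-- The longest chord of a body of positive volume has positive length. -/
lemma longest_pos (hc : IsCompact K) (hv : Convex ℝ K) (hV0 : volume K ≠ 0) {y₀ : Pl}
    (hmax : ∀ y ∈ shadow K, len K y ≤ len K y₀) : 0 < len K y₀ := by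
  by_contra hcon
  push_neg at hcon
  apply hV0
  rw [volume_eq_lintegral_sec hc.measurableSet]
  apply lintegral_eq_zero_of_ae_eq_zero
  refine Filter.Eventually.of_forall ?_
  intro y
  show volume (sec K y) = 0
  by_cases hy : y ∈ shadow K
  · rw [volume_sec hc hv hy]
    exact ENNReal.ofReal_of_nonpos ((hmax y hy).trans hcon)
  · rw [sec_empty hy]
    simp

/-- The longest chord times the area of the shadow is at most three times the volume. -/
lemma longest_mul_area_le (hc : IsCompact K) (hv : Convex ℝ K) {y₀ : Pl} (hy₀ : y₀ ∈ shadow K)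
    (hL0 : 0 < len K y₀) :
    ENNReal.ofReal (len K y₀ / 3) * volume (shadow K) ≤ volume K := by
  have := volume_lower hc hv hy₀ hy₀ hL0 le_rfl le_rfl (0 : Pl →ₗ[ℝ] ℝ) (c := 1) one_pos
    (by intro d _ d' _; simp) (t := 0) (by simp) le_rfl
  convert this using 3
  simp
  ring

/-- The sectional bound, with the ridge removed. -/
lemma section_bound (hc : IsCompact K) (hv : Convex ℝ K) (hne : K.Nonempty)
    (hA0 : volume (shadow K) ≠ 0) (hV0 : volume K ≠ 0)
    {h : ℝ} (hh0 : 0 < h) (hh1 : h ≤ 1 / 16) {Y : Set (Pl × ℝ)} (hY : ridge (3 * h) K ⊆ Y) (y : Pl) :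
    volume (sec (K \ Y) y) * volume (shadow K) ≤ ENNReal.ofReal (3 / (1 + h / 4)) * volume K := by
  obtain ⟨y₀, hy₀, hmax⟩ := exists_longest hc hne
  have hL0 := longest_pos hc hv hV0 hmax
  set L := len K y₀ with hLdef
  have hLA := longest_mul_area_le hc hv hy₀ hL0
  rw [← hLdef] at hLA
  have hsub : sec (K \ Y) y ⊆ sec K y := fun z hz => hz.1
  by_cases hvol : volume K ≤ ENNReal.ofReal ((1 + h / 4) * L / 3) * volume (shadow K)
  · -- nearly conical case
    have hsec : volume (sec (K \ Y) y) ≤ ENNReal.ofReal ((1 - h / 4) * L) := by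
      by_cases hy : y ∈ shadow K
      · by_cases hly : (1 - h / 4) * L ≤ len K y
        · have hρ0 : (0 : ℝ) ≤ h / 4 := by positivity
          have hL1 := hmax y hy
          have hhL : 0 < h * L := mul_pos hh0 hL0
          rcases chord_ends_in_ridge hc hv hL0 hmax hA0 hρ0 hρ0 (by linarith) hh0 hh1 hvol hy hly
            with hd | hd
          · have hs : sec (K \ Y) y ⊆ Icc (lo K y + h * L) (hi K y) := by
              intro z hz
              refine ⟨?_, le_hi hc hz.1⟩
              by_contra hcon
              push_neg at hcon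
              exact hz.2 (hY (hd z hz.1 hcon.le))
            refine (measure_mono hs).trans ?_
            rw [Real.volume_Icc]
            apply ENNReal.ofReal_le_ofReal
            unfold len at hL1
            nlinarith
          · have hs : sec (K \ Y) y ⊆ Icc (lo K y) (hi K y - h * L) := by
              intro z hz
              refine ⟨lo_le hc hz.1, ?_⟩
              by_contra hcon
              push_neg at hcon
              exact hz.2 (hY (hd z hz.1 hcon.le))
            refine (measure_mono hs).trans ?_
            rw [Real.volume_Icc]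
            apply ENNReal.ofReal_le_ofReal
            unfold len at hL1
            nlinarith
        · push_neg at hly
          refine (measure_mono hsub).trans ?_
          rw [volume_sec hc hv hy]
          exact ENNReal.ofReal_le_ofReal hly.le
      · refine (measure_mono hsub).trans ?_
        rw [sec_empty hy]
        simp
    calc volume (sec (K \ Y) y) * volume (shadow K)
        ≤ ENNReal.ofReal ((1 - h / 4) * L) * volume (shadow K) := by gcongr
      _ = ENNReal.ofReal (3 * (1 - h / 4)) * (ENNReal.ofReal (L / 3) * volume (shadow K)) := by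
          rw [← mul_assoc, ← ENNReal.ofReal_mul (by nlinarith)]
          congr 2
          ring
      _ ≤ ENNReal.ofReal (3 * (1 - h / 4)) * volume K := by gcongr
      _ ≤ ENNReal.ofReal (3 / (1 + h / 4)) * volume K := by
          gcongr
          rw [le_div_iff₀ (by positivity)]
          nlinarith
  · -- far from a cone
    push_neg at hvol
    have hsec : volume (sec (K \ Y) y) ≤ ENNReal.ofReal L := by
      by_cases hy : y ∈ shadow K
      · refine (measure_mono hsub).trans ?_
        rw [volume_sec hc hv hy]
        exact ENNReal.ofReal_le_ofReal (hmax y hy)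
      · refine (measure_mono hsub).trans ?_
        rw [sec_empty hy]
        simp
    have hpos : 0 < 1 + h / 4 := by positivity
    calc volume (sec (K \ Y) y) * volume (shadow K)
        ≤ ENNReal.ofReal L * volume (shadow K) := by gcongr
      _ = ENNReal.ofReal (3 / (1 + h / 4))
            * (ENNReal.ofReal ((1 + h / 4) * L / 3) * volume (shadow K)) := by
          rw [← mul_assoc, ← ENNReal.ofReal_mul (by positivity)]
          congr 2
          field_simp
      _ ≤ ENNReal.ofReal (3 / (1 + h / 4)) * volume K := by
          gcongr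

/-- The bound for a cylinder over a measurable base. -/
lemma cylinder_bound_aux (hc : IsCompact K) (hv : Convex ℝ K) (hne : K.Nonempty)
    (hA0 : volume (shadow K) ≠ 0) (hV0 : volume K ≠ 0)
    {h : ℝ} (hh0 : 0 < h) (hh1 : h ≤ 1 / 16) {Y : Set (Pl × ℝ)} (hY : ridge (3 * h) K ⊆ Y)
    (hYm : MeasurableSet Y) {B : Set Pl} (hB : MeasurableSet B) :
    volume ((K \ Y) ∩ Prod.fst ⁻¹' B) * volume (shadow K)
      ≤ volume B * (ENNReal.ofReal (3 / (1 + h / 4)) * volume K) := by
  have hS : MeasurableSet ((K \ Y) ∩ Prod.fst ⁻¹' B) :=
    (hc.measurableSet.diff hYm).inter (measurable_fst hB)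
  have hmeas : Measurable (fun y => volume (sec ((K \ Y) ∩ Prod.fst ⁻¹' B) y)) :=
    measurable_measure_prodMk_left hS
  rw [volume_eq_lintegral_sec hS, ← lintegral_mul_const _ hmeas]
  set C := ENNReal.ofReal (3 / (1 + h / 4)) * volume K with hC
  calc ∫⁻ y, volume (sec ((K \ Y) ∩ Prod.fst ⁻¹' B) y) * volume (shadow K)
      ≤ ∫⁻ y, B.indicator (fun _ => C) y := by
        apply lintegral_mono
        intro y
        show volume (sec ((K \ Y) ∩ Prod.fst ⁻¹' B) y) * volume (shadow K) ≤ _
        by_cases hy : y ∈ B
        · rw [indicator_of_mem hy]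
          refine le_trans ?_ (section_bound hc hv hne hA0 hV0 hh0 hh1 hY y)
          have hsub : sec ((K \ Y) ∩ Prod.fst ⁻¹' B) y ⊆ sec (K \ Y) y := fun z hz => hz.1
          exact mul_le_mul_left (measure_mono hsub) _
        · have : sec ((K \ Y) ∩ Prod.fst ⁻¹' B) y = ∅ := by
            ext z
            simp only [mem_empty_iff_false, iff_false]
            intro hz
            exact hy hz.2
          rw [this]
          simp
    _ = volume B * C := by
        rw [lintegral_indicator hB, setLIntegral_const, mul_comm]

/-- The bound for a cylinder over an arbitrary base. -/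
lemma cylinder_bound (hc : IsCompact K) (hv : Convex ℝ K) (hne : K.Nonempty)
    (hA0 : volume (shadow K) ≠ 0) (hV0 : volume K ≠ 0)
    {h : ℝ} (hh0 : 0 < h) (hh1 : h ≤ 1 / 16) {Y : Set (Pl × ℝ)} (hY : ridge (3 * h) K ⊆ Y)
    (hYm : MeasurableSet Y) (B : Set Pl) :
    volume ((K \ Y) ∩ Prod.fst ⁻¹' B) * volume (shadow K)
      ≤ volume B * (ENNReal.ofReal (3 / (1 + h / 4)) * volume K) := by
  have h1 := cylinder_bound_aux hc hv hne hA0 hV0 hh0 hh1 hY hYm (measurableSet_toMeasurable volume B)
  rw [measure_toMeasurable] at h1
  refine le_trans ?_ h1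
  gcongr
  exact subset_toMeasurable volume B

end Vale.Agent.Lib.P243
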