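import Vale.Agent.Lib.P243.Chord
import Vale.Agent.Lib.P243.Planar

/-! A lower bound for the volume of a convex body containing two long parallel chords. -/

namespace Vale.Agent.Lib.P243

open MeasureTheory Set

lemma integral_poly (b : ℝ) (hb : 0 ≤ b) :
    ∫⁻ s in Icc (0 : ℝ) 1, ENNReal.ofReal ((1 - s) ^ 2 + s * (1 - s) * b)
      = ENNReal.ofReal (1 / 3 + b / 6) := by
  have hnn : ∀ s ∈ Icc (0 : ℝ) 1, 0 ≤ (1 - s) ^ 2 + s * (1 - s) * b := by
    intro s hs
    have h1 : 0 ≤ 1 - s := by linarith [hs.2]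
    have := hs.1
    positivity
  have hcont : Continuous (fun s : ℝ => (1 - s) ^ 2 + s * (1 - s) * b) := by fun_prop
  have hint : IntegrableOn (fun s : ℝ => (1 - s) ^ 2 + s * (1 - s) * b) (Icc 0 1) :=
    hcont.continuousOn.integrableOn_compact isCompact_Icc
  rw [← ofReal_integral_eq_lintegral_ofReal hint
    ((ae_restrict_iff' measurableSet_Icc).2 (Filter.Eventually.of_forall hnn))]
  congr 1
  rw [integral_Icc_eq_integral_Ioc, ← intervalIntegral.integral_of_le zero_le_one]
  have hder : ∀ s ∈ uIcc (0 : ℝ) 1, HasDerivAt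
      (fun s : ℝ => -(1 - s) ^ 3 / 3 + (s ^ 2 / 2 - s ^ 3 / 3) * b)
      ((1 - s) ^ 2 + s * (1 - s) * b) s := by
    intro s _
    have h1 : HasDerivAt (fun x : ℝ => 1 - x) (-1) s := by
      simpa using (hasDerivAt_id' s).const_sub 1
    have h2 : HasDerivAt (fun x : ℝ => (1 - x) ^ 3) (3 * (1 - s) ^ 2 * (-1)) s := by
      simpa using h1.fun_pow 3
    have h3 : HasDerivAt (fun x : ℝ => x ^ 2) (2 * s) s := by
      simpa using hasDerivAt_pow 2 s
    have h4 : HasDerivAt (fun x : ℝ => x ^ 3) (3 * s ^ 2) s := by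
      simpa using hasDerivAt_pow 3 s
    have h5 := (h2.neg.div_const 3).add (((h3.div_const 2).sub (h4.div_const 3)).mul_const b)
    exact h5.congr_deriv (by ring)
  rw [intervalIntegral.integral_eq_sub_of_hasDerivAt hder (hcont.intervalIntegrable _ _)]
  ring

/-- The convex hull-like set used in the comparison. -/
def hullSet (D : Set Pl) (y y' : Pl) : Set (Pl × ℝ) :=
  (fun p : (Pl × ℝ) × ℝ => ((1 - p.2) • p.1.1 + p.2 • (y + p.1.2 • (y' - y)), p.2)) ''
    ((D ×ˢ Icc (0 : ℝ) 1) ×ˢ Icc (0 : ℝ) 1)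

lemma isCompact_hullSet {D : Set Pl} (hD : IsCompact D) (y y' : Pl) :
    IsCompact (hullSet D y y') := by
  apply ((hD.prod isCompact_Icc).prod isCompact_Icc).image
  fun_prop

lemma hullSet_slice (D : Set Pl) (y y' : Pl) {s : ℝ} (hs : s ∈ Icc (0 : ℝ) 1) :
    (fun p => (p, s)) ⁻¹' hullSet D y y' = midHull D y y' s := by
  ext p
  constructor
  · rintro ⟨⟨⟨d, a⟩, s'⟩, ⟨⟨hd, ha⟩, hs'⟩, h⟩
    simp only [Prod.mk.injEq] at h
    obtain ⟨h1, h2⟩ := h
    subst h2
    exact ⟨(d, a), ⟨hd, ha⟩, h1⟩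
  · rintro ⟨⟨d, a⟩, ⟨hd, ha⟩, h⟩
    exact ⟨((d, a), s), ⟨⟨hd, ha⟩, hs⟩, by simpa using h⟩

/-- Key volume bound: two chords of length at least `h₀` over `y, y'`, and a linear functional of
oscillation at most `c` on the shadow with `t = f (y' - y) ≥ 0`. -/
theorem volume_lower {K : Set (Pl × ℝ)} (hc : IsCompact K) (hv : Convex ℝ K) {y y' : Pl}
    (hy : y ∈ shadow K) (hy' : y' ∈ shadow K) {h₀ : ℝ} (hh₀ : 0 < h₀) (hl : h₀ ≤ len K y)
    (hl' : h₀ ≤ len K y') (f : Pl →ₗ[ℝ] ℝ) {c t : ℝ} (hc0 : 0 < c)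
    (hf : ∀ d ∈ shadow K, ∀ d' ∈ shadow K, f (d - d') ≤ c) (ht : f (y' - y) = t) (ht0 : 0 ≤ t) :
    ENNReal.ofReal (h₀ * (1 / 3 + (t / c) / 6)) * volume (shadow K) ≤ volume K := by
  set D := shadow K with hD
  have hDc : IsCompact D := isCompact_shadow hc
  set G := hullSet D y y' with hG
  have hGc : IsCompact G := isCompact_hullSet hDc y y'
  have hGm : MeasurableSet G := hGc.measurableSet
  have hKm : MeasurableSet K := hc.measurableSet
  -- membership facts
  have hmem : ∀ p s, (p, s) ∈ G → 0 ≤ s ∧ p ∈ D ∧ s * h₀ ≤ len K p := by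
    rintro p s ⟨⟨⟨d, a⟩, s'⟩, ⟨⟨hd, ha⟩, hs'⟩, h⟩
    simp only [Prod.mk.injEq] at h
    obtain ⟨h1, h2⟩ := h
    subst h2
    have hs0 := hs'.1
    have hs1 : 0 ≤ 1 - s' := by linarith [hs'.2]
    have ha0 := ha.1
    have ha1 : 0 ≤ 1 - a := by linarith [ha.2]
    have hfe : y + a • (y' - y) = (1 - a) • y + a • y' := by
      ext <;> simp <;> ring
    have hfD : y + a • (y' - y) ∈ D := by
      rw [hfe]
      exact mem_shadow_comb hv hy hy' ha1 ha0 (by ring)
    have hlf : h₀ ≤ len K (y + a • (y' - y)) := by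
      rw [hfe]
      have := len_comb hc hv hy hy' ha1 ha0 (by ring)
      nlinarith
    have hpD : p ∈ D := by
      rw [← h1]
      exact mem_shadow_comb hv hd hfD hs1 hs0 (by ring)
    refine ⟨hs0, hpD, ?_⟩
    rw [← h1]
    have h3 := len_comb hc hv hd hfD hs1 hs0 (by ring)
    have h4 := len_nonneg hc hd
    nlinarith
  -- first comparison: slices over points of the plane
  have hcmp : volume G * ENNReal.ofReal h₀ ≤ volume K := by
    rw [Measure.volume_eq_prod, Measure.prod_apply hGm, Measure.prod_apply hKm]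
    rw [← lintegral_mul_const _ (measurable_measure_prodMk_left hGm)]
    apply lintegral_mono
    intro p
    by_cases hp : p ∈ D
    · have hsub : Prod.mk p ⁻¹' G ⊆ Icc 0 (len K p / h₀) := by
        intro s hs
        obtain ⟨h1, _, h3⟩ := hmem p s hs
        refine ⟨h1, ?_⟩
        rw [le_div_iff₀ hh₀]
        exact h3
      calc volume (Prod.mk p ⁻¹' G) * ENNReal.ofReal h₀
          ≤ volume (Icc 0 (len K p / h₀)) * ENNReal.ofReal h₀ := by
            gcongr
        _ = ENNReal.ofReal (len K p / h₀) * ENNReal.ofReal h₀ := by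
            rw [Real.volume_Icc, sub_zero]
        _ = ENNReal.ofReal (len K p) := by
            rw [← ENNReal.ofReal_mul (div_nonneg (len_nonneg hc hp) hh₀.le)]
            congr 1
            field_simp
        _ = volume (Prod.mk p ⁻¹' K) := (volume_sec hc hv hp).symm
    · have : Prod.mk p ⁻¹' G = ∅ := by
        ext s
        simp only [mem_preimage, mem_empty_iff_false, iff_false]
        intro hs
        exact hp (hmem p s hs).2.1
      beta_reduce
      rw [this]
      simp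
  -- second computation: horizontal slices
  have hb : 0 ≤ t / c := div_nonneg ht0 hc0.le
  have hlow : ENNReal.ofReal (1 / 3 + (t / c) / 6) * volume D ≤ volume G := by
    have e : volume G = ∫⁻ s, volume ((fun p => (p, s)) ⁻¹' G) := by
      rw [Measure.volume_eq_prod, Measure.prod_apply_symm hGm]
    rw [e]
    calc ENNReal.ofReal (1 / 3 + (t / c) / 6) * volume D
        = ∫⁻ s in Icc (0 : ℝ) 1, ENNReal.ofReal ((1 - s) ^ 2 + s * (1 - s) * (t / c)) * volume D := by
          rw [lintegral_mul_const' _ _ hDc.measure_lt_top.ne, integral_poly _ hb]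
      _ ≤ ∫⁻ s in Icc (0 : ℝ) 1, volume ((fun p => (p, s)) ⁻¹' G) := by
          apply setLIntegral_mono' measurableSet_Icc
          intro s hs
          rw [hG, hullSet_slice D y y' hs]
          exact planar_main hDc f hc0 hf ht ht0 hs.1 hs.2
      _ ≤ ∫⁻ s, volume ((fun p => (p, s)) ⁻¹' G) := setLIntegral_le_lintegral _ _
  calc ENNReal.ofReal (h₀ * (1 / 3 + (t / c) / 6)) * volume D
      = (ENNReal.ofReal (1 / 3 + (t / c) / 6) * volume D) * ENNReal.ofReal h₀ := by
        rw [ENNReal.ofReal_mul hh₀.le]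
        ring
    _ ≤ volume G * ENNReal.ofReal h₀ := by gcongr
    _ ≤ volume K := hcmp

end Vale.Agent.Lib.P243
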